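import Mathlib

/-!
# Generalized regular expressions and star height
-/

namespace Vale.Agent.P329

/-- Generalized regular expressions over the alphabet `α`. -/
inductive GRE (α : Type) : Type
  | zero : GRE α
  | one : GRE α
  | char : α → GRE α
  | plus : GRE α → GRE α → GRE α
  | times : GRE α → GRE α → GRE α
  | neg : GRE α → GRE α
  | star : GRE α → GRE α

/-- The language denoted by a generalized regular expression; complements are taken in the set of
all words. -/
def GRE.lang {α : Type} : GRE α → Set (List α)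
  | .zero => ∅
  | .one => {[]}
  | .char a => {[a]}
  | .plus P Q => P.lang ∪ Q.lang
  | .times P Q => {w | ∃ u ∈ P.lang, ∃ v ∈ Q.lang, w = u ++ v}
  | .neg P => (P.lang)ᶜ
  | .star P => {w | ∃ L : List (List α), (∀ u ∈ L, u ∈ P.lang) ∧ w = L.flatten}

/-- The star height of a generalized regular expression. -/
def GRE.sh {α : Type} : GRE α → ℕ
  | .zero => 0
  | .one => 0
  | .char _ => 0
  | .plus P Q => max P.sh Q.sh
  | .times P Q => max P.sh Q.sh
  | .neg P => P.sh
  | .star P => P.sh + 1

/-- The language `L` has generalized star height at most `k`. -/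
def HLe {α : Type} (k : ℕ) (L : Set (List α)) : Prop := ∃ P : GRE α, P.sh ≤ k ∧ P.lang = L

/-- The action of a word on the states; the word is read from right to left, the letter `a` acts
by `f a`. -/
def act {α X : Type} (f : α → X → X) : List α → X → X
  | [], i => i
  | a :: w, i => f a (act f w i)

/-- `Avoid f D w i j`: reading `w` (from right to left) from the state `i` leads to the state `j`,
and no state visited (including `i` and `j`) belongs to `D`. -/
def Avoid {α X : Type} (f : α → X → X) (D : Set X) : List α → X → X → Prop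
  | [], i, j => i = j ∧ j ∉ D
  | a :: w, i, j => ∃ k, Avoid f D w i k ∧ f a k = j ∧ j ∉ D

/-- The partial automaton obtained by deleting the states in `D` is counter-free. -/
def AperOff {α X : Type} (f : α → X → X) (D : Set X) : Prop :=
  ∀ w : List α, ∃ n : ℕ, ∀ i j : X, Avoid f D (List.replicate n w).flatten i j ↔
    Avoid f D (List.replicate (n + 1) w).flatten i j

variable {α : Type}

/-- concatenation -/
def cat (L M : Set (List α)) : Set (List α) := {w | ∃ u ∈ L, ∃ v ∈ M, w = u ++ v}

/-- Kleene star -/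
def kst (L : Set (List α)) : Set (List α) :=
  {w | ∃ l : List (List α), (∀ u ∈ l, u ∈ L) ∧ w = l.flatten}

namespace HLe

variable {k : ℕ} {L M : Set (List α)}

theorem empty : HLe k (∅ : Set (List α)) := ⟨.zero, Nat.zero_le _, rfl⟩

theorem eps : HLe k ({[]} : Set (List α)) := ⟨.one, Nat.zero_le _, rfl⟩

theorem char (a : α) : HLe k ({[a]} : Set (List α)) := ⟨.char a, Nat.zero_le _, rfl⟩

theorem union (h : HLe k L) (h' : HLe k M) : HLe k (L ∪ M) := by
  obtain ⟨P, hP, rfl⟩ := h
  obtain ⟨Q, hQ, rfl⟩ := h'
  exact ⟨.plus P Q, max_le hP hQ, rfl⟩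

theorem cat (h : HLe k L) (h' : HLe k M) : HLe k (cat L M) := by
  obtain ⟨P, hP, rfl⟩ := h
  obtain ⟨Q, hQ, rfl⟩ := h'
  exact ⟨.times P Q, max_le hP hQ, rfl⟩

theorem compl (h : HLe k L) : HLe k Lᶜ := by
  obtain ⟨P, hP, rfl⟩ := h
  exact ⟨.neg P, hP, rfl⟩

theorem inter (h : HLe k L) (h' : HLe k M) : HLe k (L ∩ M) := by
  have := (h.compl.union h'.compl).compl
  rwa [Set.compl_union, compl_compl, compl_compl] at this

theorem univ : HLe k (Set.univ : Set (List α)) := by
  have := (empty (α := α) (k := k)).compl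
  rwa [Set.compl_empty] at this

theorem kst (h : HLe k L) : HLe (k + 1) (kst L) := by
  obtain ⟨P, hP, rfl⟩ := h
  exact ⟨.star P, Nat.succ_le_succ hP, rfl⟩

theorem mono {l : ℕ} (hkl : k ≤ l) (h : HLe k L) : HLe l L := by
  obtain ⟨P, hP, rfl⟩ := h
  exact ⟨P, hP.trans hkl, rfl⟩

/-- finite unions over a finset -/
theorem biUnion {ι : Type} (s : Finset ι) (F : ι → Set (List α)) (h : ∀ i ∈ s, HLe k (F i)) :
    HLe k (⋃ i ∈ s, F i) := by
  classical
  induction s using Finset.induction_on with
  | empty => simpa using empty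
  | insert a s ha ih =>
    rw [Finset.set_biUnion_insert]
    exact (h a (Finset.mem_insert_self _ _)).union
      (ih (fun i hi => h i (Finset.mem_insert_of_mem hi)))

theorem iUnion {ι : Type} [Finite ι] (F : ι → Set (List α)) (h : ∀ i, HLe k (F i)) :
    HLe k (⋃ i, F i) := by
  classical
  have := Fintype.ofFinite ι
  have := biUnion Finset.univ F (fun i _ => h i)
  simpa using this

theorem iInter {ι : Type} [Finite ι] (F : ι → Set (List α)) (h : ∀ i, HLe k (F i)) :
    HLe k (⋂ i, F i) := by
  have := (iUnion (fun i => (F i)ᶜ) (fun i => (h i).compl)).compl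
  rwa [Set.compl_iUnion, Set.iInter_congr (fun i => compl_compl (F i))] at this

theorem iUnionProp {p : Prop} (F : p → Set (List α)) (h : ∀ i, HLe k (F i)) :
    HLe k (⋃ i, F i) := by
  by_cases hp : p
  · have : (⋃ i, F i) = F hp := by
      ext w
      simp [hp]
    rw [this]
    exact h hp
  · have : (⋃ i, F i) = ∅ := by
      ext w
      simp [hp]
    rw [this]
    exact empty

end HLe

/-- words over a sub-alphabet -/
def Over (B : Set α) : Set (List α) := {w | ∀ a ∈ w, a ∈ B}

theorem HLe.over [Finite α] (B : Set α) : HLe 0 (Over B) := by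
  have h : Over B = (⋃ a : α, ⋃ _ : a ∉ B, Vale.Agent.P329.cat Set.univ
      (Vale.Agent.P329.cat {[a]} Set.univ))ᶜ := by
    ext w
    constructor
    · intro h hw
      obtain ⟨S, ⟨a, rfl⟩, hw⟩ := hw
      obtain ⟨S, ⟨ha, rfl⟩, hw⟩ := hw
      obtain ⟨u, _, v, ⟨x, hx, y, _, rfl⟩, rfl⟩ := hw
      obtain rfl : x = [a] := hx
      exact ha (h a (by simp))
    · intro h a ha
      by_contra hab
      obtain ⟨s, t, hst⟩ := List.append_of_mem ha
      refine h ?_
      refine Set.mem_iUnion.2 ⟨a, Set.mem_iUnion.2 ⟨hab, ?_⟩⟩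
      exact ⟨s, trivial, a :: t, ⟨[a], rfl, t, trivial, rfl⟩, hst⟩
  rw [h]
  apply HLe.compl
  apply HLe.iUnion
  intro a
  apply HLe.iUnionProp
  intro _
  exact HLe.univ.cat ((HLe.char a).cat HLe.univ)

end Vale.Agent.P329
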