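import Vale.Agent.P329h2.Upper

/-!
# Order preserving partial actions are aperiodic; symmetric and alternating groups
-/

namespace Vale.Agent.P329

variable {α : Type}

/-- off the point `0`, the letters act by order preserving partial maps -/
def OrdOff {m : ℕ} (f : α → Fin (m + 1) → Fin (m + 1)) : Prop :=
  ∀ (a : α) (i j : Fin (m + 1)), i ≠ 0 → j ≠ 0 → f a i ≠ 0 → f a j ≠ 0 → i < j → f a i < f a j

section Ord

variable {m : ℕ} {f : α → Fin (m + 1) → Fin (m + 1)}

theorem avoid_mono (h : OrdOff f) (w : List α) {i j i' j' : Fin (m + 1)}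
    (hi : Avoid f {0} w i i') (hj : Avoid f {0} w j j') (hij : i < j) : i' < j' := by
  induction w generalizing i' j' with
  | nil =>
    rw [← hi.1, ← hj.1]
    exact hij
  | cons a w ih =>
    obtain ⟨k, hk, rfl, hk0⟩ := hi
    obtain ⟨l, hl, rfl, hl0⟩ := hj
    exact h a k l hk.ne_right hl.ne_right hk0 hl0 (ih hk hl)

theorem avoid_unique (w : List α) {i j j' : Fin (m + 1)}
    (hi : Avoid f {0} w i j) (hj : Avoid f {0} w i j') : j = j' := hi.unique hj

/-- powers of a word -/
def rep (n : ℕ) (w : List α) : List α := (List.replicate n w).flatten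

theorem rep_zero (w : List α) : rep 0 w = [] := rfl

theorem rep_succ (n : ℕ) (w : List α) : rep (n + 1) w = w ++ rep n w := by
  unfold rep
  rw [List.replicate_succ, List.flatten_cons]

theorem rep_succ' (n : ℕ) (w : List α) : rep (n + 1) w = rep n w ++ w := by
  unfold rep
  rw [List.replicate_succ', List.flatten_append]
  simp

theorem rep_step {n : ℕ} {w : List α} {i j : Fin (m + 1)} (h : Avoid f {0} (rep (n + 1) w) i j) :
    ∃ k l, Avoid f {0} w i k ∧ Avoid f {0} (rep n w) k j ∧ Avoid f {0} (rep n w) i l ∧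
      Avoid f {0} w l j := by
  have h1 := h
  rw [rep_succ', avoid_append] at h
  rw [rep_succ, avoid_append] at h1
  obtain ⟨k, hk1, hk2⟩ := h
  obtain ⟨l, hl1, hl2⟩ := h1
  exact ⟨k, l, hk1, hk2, hl1, hl2⟩

theorem up_bound (h : OrdOff f) {w : List α} (n : ℕ) {i k j : Fin (m + 1)}
    (hk : Avoid f {0} w i k) (hik : i < k) (hj : Avoid f {0} (rep n w) i j) :
    (i : ℕ) + n ≤ j := by
  induction n generalizing j with
  | zero =>
    rw [← hj.1]
    simp
  | succ n ih =>
    obtain ⟨k', l, h1, h2, h3, h4⟩ := rep_step hj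
    obtain rfl := avoid_unique w hk h1
    have h5 := avoid_mono h (rep n w) h3 h2 hik
    have h6 := ih h3
    have h7 : (l : ℕ) < j := h5
    omega

theorem down_bound (h : OrdOff f) {w : List α} (n : ℕ) {i k j : Fin (m + 1)}
    (hk : Avoid f {0} w i k) (hik : k < i) (hj : Avoid f {0} (rep n w) i j) :
    (j : ℕ) + n ≤ i := by
  induction n generalizing j with
  | zero =>
    rw [← hj.1]
    simp
  | succ n ih =>
    obtain ⟨k', l, h1, h2, h3, h4⟩ := rep_step hj
    obtain rfl := avoid_unique w hk h1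
    have h5 := avoid_mono h (rep n w) h2 h3 hik
    have h6 := ih h3
    have h7 : (j : ℕ) < l := h5
    omega

theorem fix_rep {w : List α} {i : Fin (m + 1)} (h : Avoid f {0} w i i) (n : ℕ) :
    Avoid f {0} (rep n w) i i := by
  induction n with
  | zero => exact ⟨rfl, h.ne_right⟩
  | succ n ih =>
    rw [rep_succ, avoid_append]
    exact ⟨i, ih, h⟩

theorem long_rep (h : OrdOff f) {w : List α} {n : ℕ} (hn : m + 1 ≤ n) {i j : Fin (m + 1)}
    (hj : Avoid f {0} (rep n w) i j) : Avoid f {0} w i i ∧ j = i := by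
  obtain ⟨n, rfl⟩ : ∃ n', n = n' + 1 := ⟨n - 1, by omega⟩
  obtain ⟨k, l, h1, h2, h3, h4⟩ := rep_step hj
  rcases lt_trichotomy i k with hik | hik | hik
  · have := up_bound h (n + 1) h1 hik hj
    have := j.2
    omega
  · subst hik
    exact ⟨h1, avoid_unique _ hj (fix_rep h1 _)⟩
  · have := down_bound h (n + 1) h1 hik hj
    have := i.2
    omega

theorem aperOff_of_ordOff (h : OrdOff f) : AperOff f ({0} : Set (Fin (m + 1))) := by
  intro w
  refine ⟨m + 1, fun i j => ?_⟩
  change Avoid f {0} (rep (m + 1) w) i j ↔ Avoid f {0} (rep (m + 1 + 1) w) i j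
  constructor
  · intro hj
    obtain ⟨h1, rfl⟩ := long_rep h le_rfl hj
    exact fix_rep h1 _
  · intro hj
    obtain ⟨h1, rfl⟩ := long_rep h (Nat.le_succ _) hj
    exact fix_rep h1 _

end Ord

end Vale.Agent.P329
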