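import Vale.Agent.P329h2.Lower

/-!
# Symmetric and alternating groups
-/

namespace Vale.Agent.P329

open Equiv

variable {α : Type}

theorem act_perm {X : Type} (f : α → Perm X) (w : List α) :
    act (fun a => ⇑(f a)) w = ⇑(w.map f).prod := by
  funext i
  induction w with
  | nil => rfl
  | cons a w ih =>
    rw [List.map_cons, List.prod_cons]
    change f a (act (fun a => ⇑(f a)) w i) = f a ((w.map f).prod i)
    rw [ih]

theorem hle_one_of_ordOff [Finite α] {m : ℕ} (f : α → Perm (Fin (m + 1)))
    (h : OrdOff fun a => ⇑(f a)) (S : Set (Perm (Fin (m + 1)))) :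
    HLe 1 {w : List α | (w.map f).prod ∈ S} := by
  classical
  have h1 := upper (f := fun a => ⇑(f a)) ({0} : Finset (Fin (m + 1)))
    (by rw [Finset.coe_singleton]; exact aperOff_of_ordOff h) ((fun σ : Perm (Fin (m + 1)) => ⇑σ) '' S)
  rw [Finset.card_singleton] at h1
  have e : {w : List α | act (fun a => ⇑(f a)) w ∈ (fun σ : Perm (Fin (m + 1)) => ⇑σ) '' S} =
      {w : List α | (w.map f).prod ∈ S} := by
    ext w
    rw [Set.mem_ofPred_eq, Set.mem_ofPred_eq, act_perm]
    constructor
    · rintro ⟨σ, hσ, h2⟩
      have : σ = (w.map f).prod := DFunLike.coe_injective h2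
      rw [← this]
      exact hσ
    · intro h2
      exact ⟨_, h2, rfl⟩
  rw [← e]
  exact h1

/-- the two letters of the symmetric group: an `n`-cycle and an adjacent transposition -/
def fS (m : ℕ) (b : Bool) : Perm (Fin (m + 2)) := if b then finRotate (m + 2) else swap 0 1

theorem ordOff_fS (m : ℕ) : OrdOff fun a => ⇑(fS m a) := by
  intro a i j hi hj hi' hj' hij
  cases a with
  | false =>
    have h1 : ∀ k : Fin (m + 2), k ≠ 0 → fS m false k ≠ 0 → fS m false k = k := by
      intro k hk hk'
      change swap 0 1 k = k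
      apply swap_apply_of_ne_of_ne hk
      rintro rfl
      exact hk' (swap_apply_right 0 1)
    change fS m false i < fS m false j
    rw [h1 i hi hi', h1 j hj hj']
    exact hij
  | true =>
    have h1 : ∀ k : Fin (m + 2), fS m true k ≠ 0 → (fS m true k : ℕ) = k + 1 := by
      intro k hk
      apply coe_finRotate_of_ne_last
      rintro rfl
      exact hk finRotate_last
    change fS m true i < fS m true j
    rw [Fin.lt_def, h1 i hi', h1 j hj']
    have : (i : ℕ) < j := hij
    omega

theorem closure_fS (m : ℕ) : Subgroup.closure (Set.range (fS m)) = ⊤ := by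
  have h := Perm.closure_cycle_adjacent_swap (isCycle_finRotate (n := m)) support_finRotate 0
  rw [eq_top_iff, ← h]
  apply Subgroup.closure_mono
  rintro σ (rfl | rfl)
  · exact ⟨true, rfl⟩
  · refine ⟨false, ?_⟩
    change swap 0 1 = swap 0 (finRotate (m + 2) 0)
    rw [finRotate_apply, zero_add]

/-- the letters of the alternating group: the `3`-cycles `(0 a)(0 b)` with `a`, `b` adjacent -/
def fA (m : ℕ) (p : Fin (m + 1) × Bool) : Perm (Fin (m + 3)) :=
  if p.2 then swap 0 p.1.castSucc.succ * swap 0 p.1.succ.succ
  else swap 0 p.1.succ.succ * swap 0 p.1.castSucc.succ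

theorem three {n : ℕ} {a b k : Fin (n + 1)} (ha : a ≠ 0) (hb : b ≠ 0) (hab : a ≠ b) (hk : k ≠ 0)
    (h : (swap 0 a * swap 0 b) k ≠ 0) :
    k ≠ a ∧ (swap 0 a * swap 0 b) k = if k = b then a else k := by
  have hka : k ≠ a := by
    rintro rfl
    apply h
    rw [Perm.mul_apply, swap_apply_of_ne_of_ne hk hab, swap_apply_right]
  refine ⟨hka, ?_⟩
  rw [Perm.mul_apply]
  by_cases h1 : k = b
  · subst h1
    rw [if_pos rfl, swap_apply_right, swap_apply_left]
  · rw [if_neg h1, swap_apply_of_ne_of_ne hk h1, swap_apply_of_ne_of_ne hk hka]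

theorem ordOff_fA (m : ℕ) : OrdOff fun a => ⇑(fA m a) := by
  rintro ⟨p, b⟩ i j hi hj hi' hj' hij
  have h1 : p.castSucc.succ ≠ 0 := Fin.succ_ne_zero _
  have h2 : p.succ.succ ≠ 0 := Fin.succ_ne_zero _
  have h3 : p.castSucc.succ ≠ p.succ.succ := by
    intro h
    have := congrArg Fin.val h
    simp at this
  have v1 : (p.castSucc.succ : ℕ) = p + 1 := by simp
  have v2 : (p.succ.succ : ℕ) = p + 2 := by simp
  have hij' : (i : ℕ) < j := hij
  cases b with
  | true =>
    change (swap 0 p.castSucc.succ * swap 0 p.succ.succ) i ≠ 0 at hi'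
    change (swap 0 p.castSucc.succ * swap 0 p.succ.succ) j ≠ 0 at hj'
    change (swap 0 p.castSucc.succ * swap 0 p.succ.succ) i <
      (swap 0 p.castSucc.succ * swap 0 p.succ.succ) j
    obtain ⟨hia, hia'⟩ := three h1 h2 h3 hi hi'
    obtain ⟨hja, hja'⟩ := three h1 h2 h3 hj hj'
    rw [hia', hja', Fin.lt_def]
    have hia2 : (i : ℕ) ≠ p + 1 := fun h => hia (Fin.ext (h.trans v1.symm))
    have hja2 : (j : ℕ) ≠ p + 1 := fun h => hja (Fin.ext (h.trans v1.symm))
    split_ifs with c1 c2 c2
    · exfalso; rw [c1, c2] at hij; exact lt_irrefl _ hij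
    · rw [v1]; rw [c1, v2] at hij'; omega
    · rw [v1]
      rw [c2, v2] at hij'
      omega
    · omega
  | false =>
    change (swap 0 p.succ.succ * swap 0 p.castSucc.succ) i ≠ 0 at hi'
    change (swap 0 p.succ.succ * swap 0 p.castSucc.succ) j ≠ 0 at hj'
    change (swap 0 p.succ.succ * swap 0 p.castSucc.succ) i <
      (swap 0 p.succ.succ * swap 0 p.castSucc.succ) j
    obtain ⟨hia, hia'⟩ := three h2 h1 h3.symm hi hi'
    obtain ⟨hja, hja'⟩ := three h2 h1 h3.symm hj hj'
    rw [hia', hja', Fin.lt_def]
    have hia2 : (i : ℕ) ≠ p + 2 := fun h => hia (Fin.ext (h.trans v2.symm))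
    have hja2 : (j : ℕ) ≠ p + 2 := fun h => hja (Fin.ext (h.trans v2.symm))
    split_ifs with c1 c2 c2
    · exfalso; rw [c1, c2] at hij; exact lt_irrefl _ hij
    · rw [v2]
      rw [c1, v1] at hij'
      omega
    · rw [v2]; rw [c2, v1] at hij'; omega
    · omega

/-- all products of two star transpositions are in the group generated -/
theorem mem_pair (m : ℕ) : ∀ a b : Fin (m + 2),
    swap 0 a.succ * swap 0 b.succ ∈ Subgroup.closure (Set.range (fA m)) := by
  have h1 : ∀ a : Fin (m + 2), swap 0 (0 : Fin (m + 2)).succ * swap 0 a.succ ∈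
      Subgroup.closure (Set.range (fA m)) := by
    intro a
    induction a using Fin.induction with
    | zero => rw [swap_mul_self]; exact one_mem _
    | succ i ih =>
      have h2 : swap 0 i.castSucc.succ * swap 0 i.succ.succ ∈
          Subgroup.closure (Set.range (fA m)) :=
        Subgroup.subset_closure ⟨(i, true), rfl⟩
      have h3 := mul_mem ih h2
      rwa [mul_assoc, ← mul_assoc (swap 0 i.castSucc.succ), swap_mul_self, one_mul] at h3
  intro a b
  have h2 := mul_mem (inv_mem (h1 a)) (h1 b)
  rwa [mul_inv_rev, swap_inv, swap_inv, mul_assoc, ← mul_assoc (swap 0 (0 : Fin (m + 2)).succ),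
    swap_mul_self, one_mul] at h2

theorem closure_star (m : ℕ) : Subgroup.closure
    (Set.range fun a : Fin (m + 2) => (swap 0 a.succ : Perm (Fin (m + 3)))) = ⊤ := by
  rw [eq_top_iff, ← Perm.closure_isSwap, Subgroup.closure_le]
  have h0 : ∀ a : Fin (m + 3), (swap 0 a : Perm (Fin (m + 3))) ∈ Subgroup.closure
      (Set.range fun a : Fin (m + 2) => (swap 0 a.succ : Perm (Fin (m + 3)))) := by
    intro a
    refine Fin.cases ?_ (fun a => ?_) a
    · rw [swap_self]; exact one_mem _
    · exact Subgroup.subset_closure ⟨a, rfl⟩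
  rintro σ ⟨x, y, hxy, rfl⟩
  change swap x y ∈ Subgroup.closure _
  by_cases hx : x = 0
  · subst hx; exact h0 y
  by_cases hy : y = 0
  · subst hy; rw [swap_comm]; exact h0 x
  have : swap x y = swap 0 x * swap y 0 * swap 0 x :=
    (swap_mul_swap_mul_swap hy (Ne.symm hxy)).symm
  rw [this]
  exact mul_mem (mul_mem (h0 x) (by rw [swap_comm]; exact h0 y)) (h0 x)

theorem closure_fA (m : ℕ) :
    Subgroup.closure (Set.range (fA m)) = alternatingGroup (Fin (m + 3)) := by
  apply le_antisymm
  · rw [Subgroup.closure_le]
    rintro σ ⟨⟨p, b⟩, rfl⟩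
    change fA m (p, b) ∈ alternatingGroup (Fin (m + 3))
    rw [Perm.mem_alternatingGroup]
    have h1 : (0 : Fin (m + 3)) ≠ p.castSucc.succ := (Fin.succ_ne_zero _).symm
    have h2 : (0 : Fin (m + 3)) ≠ p.succ.succ := (Fin.succ_ne_zero _).symm
    cases b with
    | true =>
      change Perm.sign (swap 0 p.castSucc.succ * swap 0 p.succ.succ) = 1
      rw [Perm.sign_mul, Perm.sign_swap h1, Perm.sign_swap h2]
      rfl
    | false =>
      change Perm.sign (swap 0 p.succ.succ * swap 0 p.castSucc.succ) = 1
      rw [Perm.sign_mul, Perm.sign_swap h1, Perm.sign_swap h2]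
      rfl
  · intro σ hσ
    rw [Perm.mem_alternatingGroup] at hσ
    have hmem : σ ∈ Subgroup.closure
        (Set.range fun a : Fin (m + 2) => (swap 0 a.succ : Perm (Fin (m + 3)))) := by
      rw [closure_star]; trivial
    have key : (Perm.sign σ = 1 → σ ∈ Subgroup.closure (Set.range (fA m))) ∧
        (Perm.sign σ = -1 → ∀ a : Fin (m + 2),
          swap 0 a.succ * σ ∈ Subgroup.closure (Set.range (fA m))) := by
      clear hσ
      induction hmem using Subgroup.closure_induction_left with
      | one =>
        refine ⟨fun _ => one_mem _, fun h => ?_⟩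
        rw [Perm.sign_one] at h
        exact absurd h (by decide)
      | mul_left x hx y hy ih =>
        obtain ⟨c, rfl⟩ := hx
        have hc : Perm.sign (swap 0 c.succ : Perm (Fin (m + 3))) = -1 :=
          Perm.sign_swap (Fin.succ_ne_zero _).symm
        constructor
        · intro h
          rw [Perm.sign_mul, hc] at h
          have h' : Perm.sign y = -1 := by
            rcases Int.units_eq_one_or (Perm.sign y) with h1 | h1
            · rw [h1] at h; exact absurd h (by decide)
            · exact h1
          exact ih.2 h' c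
        · intro h a
          rw [Perm.sign_mul, hc] at h
          have h' : Perm.sign y = 1 := by
            rcases Int.units_eq_one_or (Perm.sign y) with h1 | h1
            · exact h1
            · rw [h1] at h; exact absurd h (by decide)
          rw [← mul_assoc]
          exact mul_mem (mem_pair m a c) (ih.1 h')
      | inv_mul_cancel x hx y hy ih =>
        obtain ⟨c, rfl⟩ := hx
        have hc : Perm.sign (swap 0 c.succ : Perm (Fin (m + 3))) = -1 :=
          Perm.sign_swap (Fin.succ_ne_zero _).symm
        constructor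
        · intro h
          rw [swap_inv, Perm.sign_mul, hc] at h
          have h' : Perm.sign y = -1 := by
            rcases Int.units_eq_one_or (Perm.sign y) with h1 | h1
            · rw [h1] at h; exact absurd h (by decide)
            · exact h1
          rw [swap_inv]
          exact ih.2 h' c
        · intro h a
          rw [swap_inv, Perm.sign_mul, hc] at h
          have h' : Perm.sign y = 1 := by
            rcases Int.units_eq_one_or (Perm.sign y) with h1 | h1
            · exact h1
            · rw [h1] at h; exact absurd h (by decide)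
          rw [swap_inv, ← mul_assoc]
          exact mul_mem (mem_pair m a c) (ih.1 h')
    exact key.1 hσ

end Vale.Agent.P329
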