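import Vale.Agent.P329h2.Gen

/-!
# Star-free languages are aperiodic
-/

namespace Vale.Agent.P329

variable {α : Type}

/-- the aperiodicity property of a language -/
def Pump (L : Set (List α)) (n : ℕ) : Prop :=
  ∀ x w y : List α, x ++ (rep n w ++ y) ∈ L ↔ x ++ (rep (n + 1) w ++ y) ∈ L

theorem Pump.succ {L : Set (List α)} {n : ℕ} (h : Pump L n) : Pump L (n + 1) := by
  intro x w y
  have := h (x ++ w) w y
  rw [rep_succ, rep_succ (n + 1), List.append_assoc, List.append_assoc, ← List.append_assoc x w,
    ← List.append_assoc x w]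
  exact this

theorem Pump.mono {L : Set (List α)} {n n' : ℕ} (hn : n ≤ n') (h : Pump L n) : Pump L n' := by
  induction hn with
  | refl => exact h
  | step _ ih => exact ih.succ

theorem rep_add (i j : ℕ) (w : List α) : rep (i + j) w = rep i w ++ rep j w := by
  induction i with
  | zero => simp [rep_zero]
  | succ i ih => rw [Nat.succ_add, rep_succ, rep_succ, ih, List.append_assoc]

theorem rep_cut (N : ℕ) (w y : List α) : ∀ c v : List α, rep N w ++ y = c ++ v →
    (∃ i j w' w'', w = w' ++ w'' ∧ i + j + 1 = N ∧ c = rep i w ++ w' ∧ v = w'' ++ (rep j w ++ y)) ∨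
      ∃ y', c = rep N w ++ y' ∧ y = y' ++ v := by
  induction N with
  | zero =>
    intro c v h
    exact Or.inr ⟨c, rfl, h⟩
  | succ N ih =>
    intro c v h
    rw [rep_succ, List.append_assoc] at h
    rcases List.append_eq_append_iff.1 h with ⟨a', hc, h1⟩ | ⟨c'', hw, hv⟩
    · rcases ih a' v h1 with ⟨i, j, w', w'', h2, h3, h4, h5⟩ | ⟨y', h2, h3⟩
      · refine Or.inl ⟨i + 1, j, w', w'', h2, by omega, ?_, h5⟩
        rw [hc, h4, rep_succ, List.append_assoc]
      · refine Or.inr ⟨y', ?_, h3⟩
        rw [hc, h2, rep_succ, List.append_assoc]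
    · exact Or.inl ⟨0, N, c, c'', hw, by omega, rfl, hv⟩

theorem Pump.cat {P Q : Set (List α)} {n m : ℕ} (hP : Pump P n) (hQ : Pump Q m) :
    Pump (cat P Q) (n + m + 1) := by
  intro x w y
  constructor
  · rintro ⟨u, hu, v, hv, h⟩
    rcases List.append_eq_append_iff.1 h with ⟨c, hc, h1⟩ | ⟨x', hx, hv'⟩
    · rcases rep_cut _ w y c v h1 with ⟨i, j, w', w'', h2, h3, h4, h5⟩ | ⟨y', h2, h3⟩
      · by_cases hi : n ≤ i
        · have h6 := (hP.mono hi) x w w'
          rw [hc, h4] at hu
          refine ⟨_, h6.1 hu, v, hv, ?_⟩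
          rw [h5]
          have e : rep (n + m + 1 + 1) w = rep (i + 1) w ++ (w ++ rep j w) := by
            rw [← rep_succ, ← rep_add]
            congr 1
            omega
          rw [e]
          nth_rewrite 2 [h2]
          simp only [List.append_assoc]
        · have hj : m ≤ j := by omega
          have h6 := (hQ.mono hj) w'' w y
          rw [h5] at hv
          refine ⟨u, hu, _, h6.1 hv, ?_⟩
          rw [hc, h4]
          have e : rep (n + m + 1 + 1) w = rep i w ++ (w ++ rep (j + 1) w) := by
            rw [← rep_succ, ← rep_add]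
            congr 1
            omega
          rw [e]
          nth_rewrite 2 [h2]
          simp only [List.append_assoc]
      · have h6 := (hP.mono (n' := n + m + 1) (by omega)) x w y'
        rw [hc, h2] at hu
        refine ⟨_, h6.1 hu, v, hv, ?_⟩
        rw [h3]
        simp only [List.append_assoc]
    · have h6 := (hQ.mono (n' := n + m + 1) (by omega)) x' w y
      rw [hv'] at hv
      refine ⟨u, hu, _, h6.1 hv, ?_⟩
      rw [hx]
      simp only [List.append_assoc]
  · rintro ⟨u, hu, v, hv, h⟩
    rcases List.append_eq_append_iff.1 h with ⟨c, hc, h1⟩ | ⟨x', hx, hv'⟩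
    · rcases rep_cut _ w y c v h1 with ⟨i, j, w', w'', h2, h3, h4, h5⟩ | ⟨y', h2, h3⟩
      · by_cases hi : n + 1 ≤ i
        · obtain ⟨i, rfl⟩ : ∃ i', i = i' + 1 := ⟨i - 1, by omega⟩
          have h6 := (hP.mono (n' := i) (by omega)) x w w'
          rw [hc, h4] at hu
          refine ⟨_, h6.2 hu, v, hv, ?_⟩
          rw [h5]
          have e : rep (n + m + 1) w = rep i w ++ (w ++ rep j w) := by
            rw [← rep_succ, ← rep_add]
            congr 1
            omega
          rw [e]
          nth_rewrite 2 [h2]
          simp only [List.append_assoc]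
        · obtain ⟨j, rfl⟩ : ∃ j', j = j' + 1 := ⟨j - 1, by omega⟩
          have h6 := (hQ.mono (n' := j) (by omega)) w'' w y
          rw [h5] at hv
          refine ⟨u, hu, _, h6.2 hv, ?_⟩
          rw [hc, h4]
          have e : rep (n + m + 1) w = rep i w ++ (w ++ rep j w) := by
            rw [← rep_succ, ← rep_add]
            congr 1
            omega
          rw [e]
          nth_rewrite 2 [h2]
          simp only [List.append_assoc]
      · have h6 := (hP.mono (n' := n + m + 1) (by omega)) x w y'
        rw [hc, h2] at hu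
        refine ⟨_, h6.2 hu, v, hv, ?_⟩
        rw [h3]
        simp only [List.append_assoc]
    · have h6 := (hQ.mono (n' := n + m + 1) (by omega)) x' w y
      rw [hv'] at hv
      refine ⟨u, hu, _, h6.2 hv, ?_⟩
      rw [hx]
      simp only [List.append_assoc]

theorem length_rep (n : ℕ) (w : List α) : (rep n w).length = n * w.length := by
  induction n with
  | zero => simp [rep_zero]
  | succ n ih => rw [rep_succ, List.length_append, ih]; ring

theorem exists_pump (P : GRE α) (hP : P.sh = 0) : ∃ n, Pump P.lang n := by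
  induction P with
  | zero => exact ⟨0, fun x w y => Iff.rfl⟩
  | one =>
    refine ⟨1, fun x w y => ?_⟩
    change x ++ (rep 1 w ++ y) = [] ↔ x ++ (rep (1 + 1) w ++ y) = []
    simp [rep_succ, rep_zero]
  | char a =>
    refine ⟨2, fun x w y => ?_⟩
    change x ++ (rep 2 w ++ y) = [a] ↔ x ++ (rep (2 + 1) w ++ y) = [a]
    by_cases hw : w = []
    · subst hw
      simp [rep_succ, rep_zero]
    · have h1 : 0 < w.length := List.length_pos_iff.2 hw
      constructor
      · intro h
        have := congrArg List.length h
        simp only [List.length_append, length_rep, List.length_cons, List.length_nil] at this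
        omega
      · intro h
        have := congrArg List.length h
        simp only [List.length_append, length_rep, List.length_cons, List.length_nil] at this
        omega
  | plus P Q ihP ihQ =>
    change max P.sh Q.sh = 0 at hP
    obtain ⟨n, hn⟩ := ihP (by omega)
    obtain ⟨m, hm⟩ := ihQ (by omega)
    refine ⟨max n m, fun x w y => ?_⟩
    change _ ∈ P.lang ∪ Q.lang ↔ _ ∈ P.lang ∪ Q.lang
    rw [Set.mem_union, Set.mem_union, (hn.mono (le_max_left n m)) x w y,
      (hm.mono (le_max_right n m)) x w y]
  | times P Q ihP ihQ =>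
    change max P.sh Q.sh = 0 at hP
    obtain ⟨n, hn⟩ := ihP (by omega)
    obtain ⟨m, hm⟩ := ihQ (by omega)
    exact ⟨n + m + 1, hn.cat hm⟩
  | neg P ih =>
    obtain ⟨n, hn⟩ := ih hP
    exact ⟨n, fun x w y => not_congr (hn x w y)⟩
  | star P _ =>
    change P.sh + 1 = 0 at hP
    omega

theorem not_hle_zero {H : Type} [Group H] [Finite H] (f : α → H) (hf : ∃ a, f a ≠ 1) :
    ¬ HLe 0 {w : List α | (w.map f).prod = 1} := by
  rintro ⟨P, hP, hL⟩
  obtain ⟨n, hn⟩ := exists_pump P (Nat.le_zero.1 hP)
  rw [hL] at hn
  obtain ⟨a, ha⟩ := hf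
  have hrep : ∀ k, ((rep k [a]).map f).prod = f a ^ k := by
    intro k
    induction k with
    | zero => simp [rep_zero]
    | succ k ih => rw [rep_succ, List.map_append, List.prod_append, ih, pow_succ']; simp
  obtain ⟨k, hk, hk1⟩ := (isOfFinOrder_of_finite (f a)).exists_pow_eq_one
  have hy : ((rep (n * k - n) [a]).map f).prod = (f a ^ n)⁻¹ := by
    rw [hrep, eq_inv_iff_mul_eq_one, ← pow_add]
    have : n * k - n + n = k * n := by
      have : n ≤ n * k := Nat.le_mul_of_pos_right n hk
      rw [mul_comm k n]
      omega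
    rw [this, pow_mul, hk1, one_pow]
  have h1 := hn [] [a] (rep (n * k - n) [a])
  simp only [List.nil_append, Set.mem_ofPred_eq, List.map_append, List.prod_append, hy] at h1
  rw [hrep, hrep] at h1
  have h2 := h1.1 (mul_inv_cancel _)
  apply ha
  rw [pow_succ'] at h2
  rwa [mul_inv_cancel_right] at h2

end Vale.Agent.P329
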