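import Vale.Agent.P329h2.Defs

/-!
# Schützenberger's theorem: languages recognized by finite aperiodic monoids are star-free
(proof by local divisors, Diekert and Kufleitner)
-/

namespace Vale.Agent.P329

/-- aperiodic monoids -/
def Aper (M : Type) [Monoid M] : Prop := ∀ x : M, ∃ n : ℕ, x ^ n = x ^ (n + 1)

theorem Aper.eq_one {M : Type} [Monoid M] (h : Aper M) {x y : M} (hxy : x * y = 1) : x = 1 := by
  obtain ⟨n, hn⟩ := h x
  have h1 : ∀ k : ℕ, x ^ k * y ^ k = 1 := by
    intro k
    induction k with
    | zero => simp
    | succ k ih => rw [pow_succ, pow_succ', mul_assoc, ← mul_assoc x y, hxy, one_mul, ih]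
  have h2 : x * (x ^ n * y ^ n) = x ^ n * y ^ n := by
    rw [← mul_assoc, ← pow_succ', ← hn]
  rwa [h1, mul_one] at h2

/-- the local divisor at `c` -/
def LD {M : Type} [Monoid M] (c : M) : Type := {x : M // (∃ y, x = c * y) ∧ ∃ z, x = z * c}

namespace LD

variable {M : Type} [Monoid M] {c : M}

/-- a left factor -/
noncomputable def lf (x : LD c) : M := Classical.choose x.2.2

theorem lf_spec (x : LD c) : x.1 = lf x * c := Classical.choose_spec x.2.2

noncomputable instance : Mul (LD c) := ⟨fun x y => ⟨lf x * y.1, by
  constructor
  · obtain ⟨a, ha⟩ := x.2.1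
    obtain ⟨w, hw⟩ := y.2.1
    exact ⟨a * w, by rw [hw, ← mul_assoc, ← lf_spec, ha, mul_assoc]⟩
  · obtain ⟨z, hz⟩ := y.2.2
    exact ⟨lf x * z, by rw [hz, mul_assoc]⟩⟩⟩

theorem mul_val (x y : LD c) (z : M) (hz : x.1 = z * c) : (x * y).1 = z * y.1 := by
  obtain ⟨w, hw⟩ := y.2.1
  change lf x * y.1 = z * y.1
  rw [hw, ← mul_assoc, ← lf_spec, hz, mul_assoc]

noncomputable instance : One (LD c) := ⟨⟨c, ⟨1, by simp⟩, ⟨1, by simp⟩⟩⟩

theorem one_val : (1 : LD c).1 = c := rfl

noncomputable instance : Monoid (LD c) where
  mul_assoc x y w := by
    apply Subtype.ext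
    obtain ⟨z, hz⟩ := x.2.2
    obtain ⟨z', hz'⟩ := y.2.2
    have h1 : (x * y).1 = z * z' * c := by rw [mul_val x y z hz, hz', mul_assoc]
    rw [mul_val (x * y) w (z * z') h1, mul_val x (y * w) z hz, mul_val y w z' hz', mul_assoc]
  one_mul x := by
    apply Subtype.ext
    rw [mul_val 1 x 1 (by rw [one_val, one_mul]), one_mul]
  mul_one x := by
    apply Subtype.ext
    obtain ⟨z, hz⟩ := x.2.2
    rw [mul_val x 1 z hz, one_val, ← hz]

theorem pow_val (x : LD c) (z : M) (hz : x.1 = z * c) (k : ℕ) : (x ^ k).1 = z ^ k * c := by
  induction k with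
  | zero => rw [pow_zero, pow_zero, one_mul, one_val]
  | succ k ih => rw [pow_succ, mul_val (x ^ k) x (z ^ k) ih, hz, pow_succ, mul_assoc]

theorem aper (h : Aper M) : Aper (LD c) := by
  intro x
  obtain ⟨z, hz⟩ := x.2.2
  obtain ⟨n, hn⟩ := h z
  refine ⟨n, ?_⟩
  apply Subtype.ext
  rw [pow_val x z hz, pow_val x z hz, hn]

instance [Finite M] : Finite (LD c) := Subtype.finite

theorem card_lt [Finite M] (h : Aper M) (hc : c ≠ 1) : Nat.card (LD c) < Nat.card M := by
  classical
  have := Fintype.ofFinite M
  have h2 : Fintype {x : M // (∃ y, x = c * y) ∧ ∃ z, x = z * c} := Fintype.ofFinite _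
  change Nat.card {x : M // (∃ y, x = c * y) ∧ ∃ z, x = z * c} < Nat.card M
  rw [Nat.card_eq_fintype_card, Nat.card_eq_fintype_card]
  have h3 : ¬ ((∃ y, (1 : M) = c * y) ∧ ∃ z, (1 : M) = z * c) := by
    rintro ⟨⟨y, hy⟩, _⟩
    exact hc (h.eq_one hy.symm)
  exact Fintype.card_subtype_lt h3

/-- the letters of the new alphabet -/
def tr (c : M) (t : M) : LD c := ⟨c * t * c, ⟨t * c, by rw [mul_assoc]⟩, ⟨c * t, rfl⟩⟩

theorem prod_tr (c : M) (ts : List M) :
    ((ts.map (tr c)).prod).1 = c * (ts.map (fun t => t * c)).prod := by
  induction ts with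
  | nil => simp [one_val]
  | cons t ts ih =>
    rw [List.map_cons, List.prod_cons, mul_val (tr c t) _ (c * t) rfl, ih, List.map_cons,
      List.prod_cons]
    simp only [mul_assoc]

end LD

/-! ### Blocks -/

section Blocks

variable {α M : Type} [Monoid M]

/-- block words with block values in `K` -/
def Bl (B : Set α) (c0 : α) (f : α → M) (K : Set (List M)) : Set (List α) :=
  {m | ∃ bs : List (List α), (∀ b ∈ bs, b ∈ Over B) ∧ m = (bs.map (fun b => b ++ [c0])).flatten ∧
    bs.map (fun b => (b.map f).prod) ∈ K}

theorem block_cancel {B : Set α} {c0 : α} (hc : c0 ∉ B) {b b' r r' : List α} (hb : b ∈ Over B)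
    (hb' : b' ∈ Over B) (h : b ++ [c0] ++ r = b' ++ [c0] ++ r') : b = b' ∧ r = r' := by
  induction b generalizing b' with
  | nil =>
    cases b' with
    | nil => simpa using h
    | cons x b' =>
      simp only [List.nil_append, List.cons_append, List.cons.injEq] at h
      exact absurd (h.1 ▸ hb' x (by simp)) hc
  | cons y b ih =>
    cases b' with
    | nil =>
      simp only [List.nil_append, List.cons_append, List.cons.injEq] at h
      exact absurd (h.1 ▸ hb y (by simp)) hc
    | cons x b' =>
      simp only [List.cons_append, List.cons.injEq] at h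
      have h1 : b ∈ Over B := fun a ha => hb a (List.mem_cons_of_mem _ ha)
      have h2 : b' ∈ Over B := fun a ha => hb' a (List.mem_cons_of_mem _ ha)
      have := ih h1 h2 (by simpa using h.2)
      exact ⟨by rw [h.1, this.1], this.2⟩

theorem blocks_unique {B : Set α} {c0 : α} (hc : c0 ∉ B) {bs bs' : List (List α)}
    (hb : ∀ b ∈ bs, b ∈ Over B) (hb' : ∀ b ∈ bs', b ∈ Over B)
    (h : (bs.map (fun b => b ++ [c0])).flatten = (bs'.map (fun b => b ++ [c0])).flatten) :
    bs = bs' := by
  induction bs generalizing bs' with
  | nil =>
    cases bs' with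
    | nil => rfl
    | cons x bs' => simp at h
  | cons y bs ih =>
    cases bs' with
    | nil => simp at h
    | cons x bs' =>
      rw [List.map_cons, List.map_cons, List.flatten_cons, List.flatten_cons] at h
      have h1 := block_cancel hc (hb y (by simp)) (hb' x (by simp)) h
      rw [h1.1, ih (fun b hbb => hb b (List.mem_cons_of_mem _ hbb))
        (fun b hbb => hb' b (List.mem_cons_of_mem _ hbb)) h1.2]

/-- decomposition of arbitrary words into blocks and a tail -/
theorem block_decomp (B : Set α) (c0 : α) (w : List α) (hw : w ∈ Over (B ∪ {c0})) :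
    ∃ (bs : List (List α)) (t : List α), (∀ b ∈ bs, b ∈ Over B) ∧ t ∈ Over B ∧
      w = (bs.map (fun b => b ++ [c0])).flatten ++ t := by
  classical
  induction w with
  | nil => exact ⟨[], [], by simp, by simp [Over], by simp⟩
  | cons a w ih =>
    obtain ⟨bs, t, hbs, ht, hw'⟩ := ih (fun x hx => hw x (List.mem_cons_of_mem _ hx))
    have ha : a ∈ B ∪ {c0} := hw a (by simp)
    by_cases hac : a ∈ B
    · cases bs with
      | nil =>
        refine ⟨[], a :: t, by simp, ?_, by simp [hw']⟩
        intro x hx
        rcases List.mem_cons.1 hx with rfl | hx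
        · exact hac
        · exact ht x hx
      | cons b bs =>
        refine ⟨(a :: b) :: bs, t, ?_, ht, by simp [hw']⟩
        intro x hx
        rcases List.mem_cons.1 hx with rfl | hx
        · intro y hy
          rcases List.mem_cons.1 hy with rfl | hy
          · exact hac
          · exact hbs b (by simp) y hy
        · exact hbs x (List.mem_cons_of_mem _ hx)
    · have : a = c0 := by
        rcases ha with ha | ha
        · exact absurd ha hac
        · exact ha
      subst this
      refine ⟨[] :: bs, t, ?_, ht, by simp [hw']⟩
      intro x hx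
      rcases List.mem_cons.1 hx with rfl | hx
      · simp [Over]
      · exact hbs x hx

theorem Bl_univ [Finite α] (B : Set α) (c0 : α) (f : α → M) :
    HLe 0 (Bl B c0 f Set.univ) := by
  have h : Bl B c0 f Set.univ = {[]} ∪ cat (Over (B ∪ {c0})) {[c0]} := by
    ext w
    constructor
    · rintro ⟨bs, hbs, rfl, _⟩
      rcases List.eq_nil_or_concat bs with rfl | ⟨bs', b, rfl⟩
      · left; simp
      · right
        refine ⟨(bs'.map (fun b => b ++ [c0])).flatten ++ b, ?_, [c0], rfl, by simp⟩
        intro x hx
        rcases List.mem_append.1 hx with hx | hx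
        · rw [List.mem_flatten] at hx
          obtain ⟨l, hl, hx⟩ := hx
          rw [List.mem_map] at hl
          obtain ⟨b', hb', rfl⟩ := hl
          rcases List.mem_append.1 hx with hx | hx
          · exact Or.inl (hbs b' (by simp [hb']) x hx)
          · right; simpa using hx
        · exact Or.inl (hbs b (by simp) x hx)
    · rintro (hw | ⟨u, hu, v, hv, rfl⟩)
      · obtain rfl : w = [] := hw
        exact ⟨[], by simp, by simp, trivial⟩
      · obtain rfl : v = [c0] := hv
        obtain ⟨bs, t, hbs, ht, hu'⟩ := block_decomp B c0 u hu
        refine ⟨bs ++ [t], ?_, by simp [hu'], trivial⟩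
        intro x hx
        rcases List.mem_append.1 hx with hx | hx
        · exact hbs x hx
        · rw [List.mem_singleton] at hx
          rw [hx]
          exact ht
  rw [h]
  exact HLe.eps.union ((HLe.over _).cat (HLe.char _))

theorem Bl_HLe [Finite α] (B : Set α) (c0 : α) (hc : c0 ∉ B) (f : α → M)
    (hB : ∀ t : M, HLe 0 {u : List α | u ∈ Over B ∧ (u.map f).prod = t})
    (P : GRE M) (hP : P.sh = 0) : HLe 0 (Bl B c0 f P.lang) := by
  induction P with
  | zero =>
    have : Bl B c0 f (GRE.zero : GRE M).lang = ∅ := by
      ext w
      simp [Bl, GRE.lang]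
    rw [this]
    exact HLe.empty
  | one =>
    have : Bl B c0 f (GRE.one : GRE M).lang = {[]} := by
      ext w
      constructor
      · rintro ⟨bs, _, rfl, h⟩
        have h' : bs.map (fun b => (b.map f).prod) = [] := h
        rw [List.map_eq_nil_iff] at h'
        subst h'
        simp
      · intro h
        obtain rfl : w = [] := h
        exact ⟨[], by simp, by simp, rfl⟩
    rw [this]
    exact HLe.eps
  | char t =>
    have : Bl B c0 f (GRE.char t : GRE M).lang =
        cat {u : List α | u ∈ Over B ∧ (u.map f).prod = t} {[c0]} := by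
      ext w
      constructor
      · rintro ⟨bs, hbs, rfl, h⟩
        have h' : bs.map (fun b => (b.map f).prod) = [t] := h
        rw [List.map_eq_singleton_iff] at h'
        obtain ⟨b, rfl, hb⟩ := h'
        exact ⟨b, ⟨hbs b (by simp), hb⟩, [c0], rfl, by simp⟩
      · rintro ⟨u, ⟨hu, hu'⟩, v, hv, rfl⟩
        obtain rfl : v = [c0] := hv
        refine ⟨[u], by simpa using hu, by simp, ?_⟩
        change [(u.map f).prod] = [t]
        rw [hu']
    rw [this]
    exact (hB t).cat (HLe.char _)
  | plus P Q ihP ihQ =>
    have h1 : max P.sh Q.sh = 0 := hP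
    have h2 : P.sh = 0 := by omega
    have h3 : Q.sh = 0 := by omega
    have : Bl B c0 f (GRE.plus P Q).lang = Bl B c0 f P.lang ∪ Bl B c0 f Q.lang := by
      ext w
      constructor
      · rintro ⟨bs, hbs, hw, h | h⟩
        · exact Or.inl ⟨bs, hbs, hw, h⟩
        · exact Or.inr ⟨bs, hbs, hw, h⟩
      · rintro (⟨bs, hbs, hw, h⟩ | ⟨bs, hbs, hw, h⟩)
        · exact ⟨bs, hbs, hw, Or.inl h⟩
        · exact ⟨bs, hbs, hw, Or.inr h⟩
    rw [this]
    exact (ihP h2).union (ihQ h3)
  | times P Q ihP ihQ =>
    have h1 : max P.sh Q.sh = 0 := hP
    have h2 : P.sh = 0 := by omega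
    have h3 : Q.sh = 0 := by omega
    have : Bl B c0 f (GRE.times P Q).lang = cat (Bl B c0 f P.lang) (Bl B c0 f Q.lang) := by
      ext w
      constructor
      · rintro ⟨bs, hbs, rfl, u, hu, v, hv, h⟩
        rw [List.map_eq_append_iff] at h
        obtain ⟨b1, b2, rfl, h1', h2'⟩ := h
        refine ⟨_, ⟨b1, fun b hb => hbs b (by simp [hb]), rfl, ?_⟩, _,
          ⟨b2, fun b hb => hbs b (by simp [hb]), rfl, ?_⟩, by simp⟩
        · rw [h1']; exact hu
        · rw [h2']; exact hv
      · rintro ⟨u, ⟨b1, hb1, rfl, h1'⟩, v, ⟨b2, hb2, rfl, h2'⟩, rfl⟩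
        refine ⟨b1 ++ b2, ?_, by simp, _, h1', _, h2', by simp⟩
        intro b hb
        rcases List.mem_append.1 hb with hb | hb
        · exact hb1 b hb
        · exact hb2 b hb
    rw [this]
    exact (ihP h2).cat (ihQ h3)
  | neg P ihP =>
    have h2 : P.sh = 0 := hP
    have : Bl B c0 f (GRE.neg P).lang = Bl B c0 f Set.univ ∩ (Bl B c0 f P.lang)ᶜ := by
      ext w
      constructor
      · rintro ⟨bs, hbs, hw, h⟩
        refine ⟨⟨bs, hbs, hw, trivial⟩, ?_⟩
        rintro ⟨bs', hbs', hw', h'⟩
        have := blocks_unique hc hbs hbs' (hw.symm.trans hw')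
        subst this
        exact h h'
      · rintro ⟨⟨bs, hbs, hw, _⟩, h⟩
        exact ⟨bs, hbs, hw, fun h' => h ⟨bs, hbs, hw, h'⟩⟩
    rw [this]
    exact (Bl_univ B c0 f).inter (ihP h2).compl
  | star P _ =>
    have h1 : P.sh + 1 = 0 := hP
    omega

end Blocks

/-- main induction -/
theorem schutz_aux (n : ℕ) : ∀ (M : Type) [Monoid M] [Finite M], Nat.card M ≤ n → Aper M →
    ∀ (α : Type) [Finite α] (f : α → M) (k : ℕ) (B : Finset α), B.card ≤ k → ∀ p : M,
      HLe 0 {u : List α | u ∈ Over (B : Set α) ∧ (u.map f).prod = p} := by
  classical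
  induction n with
  | zero =>
    intro M _ _ hM _ α _ f k B _ p
    have : 0 < Nat.card M := Nat.card_pos
    omega
  | succ n ihn =>
    intro M _ _ hM hA α _ f k
    induction k with
    | zero =>
      intro B hB p
      have hB0 : B = ∅ := Finset.card_eq_zero.1 (by omega)
      subst hB0
      by_cases hp : p = 1
      · have : {u : List α | u ∈ Over ((∅ : Finset α) : Set α) ∧ (u.map f).prod = p} = {[]} := by
          ext w
          constructor
          · rintro ⟨hw, _⟩
            cases w with
            | nil => rfl
            | cons a w => exact absurd (hw a (by simp)) (by simp)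
          · intro hw
            obtain rfl : w = [] := hw
            exact ⟨by simp [Over], by simp [hp]⟩
        rw [this]
        exact HLe.eps
      · have : {u : List α | u ∈ Over ((∅ : Finset α) : Set α) ∧ (u.map f).prod = p} = ∅ := by
          ext w
          constructor
          · rintro ⟨hw, hw'⟩
            cases w with
            | nil => exact hp (by simpa using hw'.symm)
            | cons a w => exact absurd (hw a (by simp)) (by simp)
          · intro hw
            exact absurd hw (Set.notMem_empty w)
        rw [this]
        exact HLe.empty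
    | succ k ihk =>
      intro B hB p
      by_cases hone : ∀ b ∈ B, f b = 1
      · have hprod : ∀ u : List α, u ∈ Over (B : Set α) → (u.map f).prod = 1 := by
          intro u hu
          apply List.prod_eq_one
          intro x hx
          rw [List.mem_map] at hx
          obtain ⟨a, ha, rfl⟩ := hx
          exact hone a (by simpa using hu a ha)
        by_cases hp : p = 1
        · have : {u : List α | u ∈ Over (B : Set α) ∧ (u.map f).prod = p} = Over (B : Set α) := by
            ext w
            constructor
            · exact fun h => h.1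
            · exact fun h => ⟨h, by rw [hprod w h, hp]⟩
          rw [this]
          exact HLe.over _
        · have : {u : List α | u ∈ Over (B : Set α) ∧ (u.map f).prod = p} = ∅ := by
            ext w
            constructor
            · rintro ⟨h, h'⟩
              exact hp (by rw [← h', hprod w h])
            · intro hw
              exact absurd hw (Set.notMem_empty w)
          rw [this]
          exact HLe.empty
      · push Not at hone
        obtain ⟨c0, hc0, hfc⟩ := hone
        -- sub-alphabet
        set B' := B.erase c0 with hB'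
        have hB'c : B'.card ≤ k := by
          rw [hB', Finset.card_erase_of_mem hc0]
          omega
        have hcB' : c0 ∉ (B' : Set α) := by simp [hB']
        have hunion : (B : Set α) = (B' : Set α) ∪ {c0} := by
          rw [hB', Finset.coe_erase, Set.sdiff_union_self]
          symm
          rw [Set.union_eq_left]
          intro x hx
          obtain rfl : x = c0 := hx
          exact hc0
        have ih1 := ihk B' hB'c
        -- local divisor
        have hlt : Nat.card (LD (f c0)) < Nat.card M := LD.card_lt hA hfc
        have ih2 : ∀ q : LD (f c0), HLe 0 {ts : List M | (ts.map (LD.tr (f c0))).prod = q} := by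
          intro q
          have := Fintype.ofFinite M
          have h := ihn (LD (f c0)) (by omega) (LD.aper hA) M (LD.tr (f c0))
            (Finset.univ : Finset M).card Finset.univ le_rfl q
          have h' : {u : List M | u ∈ Over ((Finset.univ : Finset M) : Set M) ∧
              (u.map (LD.tr (f c0))).prod = q} = {ts : List M | (ts.map (LD.tr (f c0))).prod = q} := by
            ext w
            constructor
            · exact fun h => h.2
            · exact fun h => ⟨by simp [Over], h⟩
          rwa [h'] at h
        have ih3 : ∀ q : LD (f c0), HLe 0 (Bl (B' : Set α) c0 f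
            {ts : List M | (ts.map (LD.tr (f c0))).prod = q}) := by
          intro q
          obtain ⟨P, hP, hPl⟩ := ih2 q
          rw [← hPl]
          exact Bl_HLe _ c0 hcB' f ih1 P (by omega)
        have hmain : {u : List α | u ∈ Over (B : Set α) ∧ (u.map f).prod = p} =
            {u : List α | u ∈ Over (B' : Set α) ∧ (u.map f).prod = p} ∪
            ⋃ x : {x : M × LD (f c0) × M // x.1 * x.2.1.1 * x.2.2 = p},
              cat {u : List α | u ∈ Over (B' : Set α) ∧ (u.map f).prod = x.1.1}
                (cat {[c0]} (cat (Bl (B' : Set α) c0 f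
                  {ts : List M | (ts.map (LD.tr (f c0))).prod = x.1.2.1})
                  {u : List α | u ∈ Over (B' : Set α) ∧ (u.map f).prod = x.1.2.2})) := by
          ext w
          constructor
          · rintro ⟨hw, hwp⟩
            rw [hunion] at hw
            obtain ⟨bs, t, hbs, ht, rfl⟩ := block_decomp _ c0 w hw
            cases bs with
            | nil =>
              left
              simp only [List.map_nil, List.flatten_nil, List.nil_append] at hwp ⊢
              exact ⟨ht, hwp⟩
            | cons b bs =>
              right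
              have hval : ((bs.map (fun b => (b.map f).prod)).map (LD.tr (f c0))).prod.1 =
                  f c0 * (((bs.map (fun b => b ++ [c0])).flatten).map f).prod := by
                rw [LD.prod_tr]
                congr 1
                rw [List.map_map, List.map_flatten, List.prod_flatten, List.map_map, List.map_map]
                congr 1
                apply List.map_congr_left
                intro x _
                simp
              refine Set.mem_iUnion.2 ⟨⟨((b.map f).prod,
                ((bs.map (fun b => (b.map f).prod)).map (LD.tr (f c0))).prod, (t.map f).prod), ?_⟩, ?_⟩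
              · change (b.map f).prod * _ * (t.map f).prod = p
                rw [hval, ← hwp]
                simp [mul_assoc]
              · refine ⟨b, ⟨hbs b (by simp), rfl⟩, _, ⟨[c0], rfl, _, ⟨_, ⟨bs, fun x hx =>
                  hbs x (by simp [hx]), rfl, rfl⟩, t, ⟨ht, rfl⟩, rfl⟩, rfl⟩, by simp⟩
          · rintro (⟨hw, hwp⟩ | hw)
            · refine ⟨?_, hwp⟩
              intro a ha
              rw [hunion]
              exact Or.inl (hw a ha)
            · obtain ⟨⟨⟨p1, q, p3⟩, hx⟩, hw⟩ := Set.mem_iUnion.1 hw
              obtain ⟨u, ⟨hu, hup⟩, v, ⟨v1, hv1, v2, ⟨m, ⟨bs, hbs, rfl, hbsq⟩, t, ⟨ht, htp⟩, rfl⟩, rfl⟩,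
                rfl⟩ := hw
              obtain rfl : v1 = [c0] := hv1
              have hbsq' : ((bs.map (fun b => (b.map f).prod)).map (LD.tr (f c0))).prod = q := hbsq
              have hval : ((bs.map (fun b => (b.map f).prod)).map (LD.tr (f c0))).prod.1 =
                  f c0 * (((bs.map (fun b => b ++ [c0])).flatten).map f).prod := by
                rw [LD.prod_tr]
                congr 1
                rw [List.map_map, List.map_flatten, List.prod_flatten, List.map_map, List.map_map]
                congr 1
                apply List.map_congr_left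
                intro x _
                simp
              constructor
              · intro a ha
                rw [hunion]
                simp only [List.mem_append, List.mem_singleton, List.mem_flatten, List.mem_map] at ha
                rcases ha with ha | ha | ⟨l, ⟨b, hb, rfl⟩, ha⟩ | ha
                · exact Or.inl (hu a ha)
                · exact Or.inr ha
                · rcases List.mem_append.1 ha with ha | ha
                  · exact Or.inl (hbs b hb a ha)
                  · right; simpa using ha
                · exact Or.inl (ht a ha)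
              · have hx' : p1 * q.1 * p3 = p := hx
                have hup' : (u.map f).prod = p1 := hup
                have htp' : (t.map f).prod = p3 := htp
                rw [← hx', ← hbsq', hval, ← hup', ← htp']
                simp [mul_assoc]
        rw [hmain]
        apply (ih1 p).union
        apply HLe.iUnion
        intro x
        exact (ih1 _).cat ((HLe.char _).cat ((ih3 _).cat (ih1 _)))

/-- Schützenberger's theorem -/
theorem schutz {M : Type} [Monoid M] [Finite M] (hA : Aper M) {α : Type} [Finite α] (f : α → M)
    (p : M) : HLe 0 {u : List α | (u.map f).prod = p} := by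
  classical
  have := Fintype.ofFinite α
  have h := schutz_aux (Nat.card M) M le_rfl hA α f (Finset.univ : Finset α).card Finset.univ
    le_rfl p
  have h' : {u : List α | u ∈ Over ((Finset.univ : Finset α) : Set α) ∧ (u.map f).prod = p} =
      {u : List α | (u.map f).prod = p} := by
    ext w
    constructor
    · exact fun h => h.2
    · exact fun h => ⟨by simp [Over], h⟩
  rwa [h'] at h

/-- a version where only the image of the words is aperiodic -/
theorem schutz' {M : Type} [Monoid M] [Finite M] {α : Type} [Finite α] (f : α → M)
    (hA : ∀ w : List α, ∃ n : ℕ, (w.map f).prod ^ n = (w.map f).prod ^ (n + 1))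
    (p : M) : HLe 0 {u : List α | (u.map f).prod = p} := by
  classical
  let S := Submonoid.closure (Set.range f)
  have hS : ∀ x ∈ S, ∃ w : List α, (w.map f).prod = x := by
    intro x hx
    induction hx using Submonoid.closure_induction with
    | mem x hx =>
      obtain ⟨a, rfl⟩ := hx
      exact ⟨[a], by simp⟩
    | one => exact ⟨[], by simp⟩
    | mul x y _ _ hx hy =>
      obtain ⟨w, rfl⟩ := hx
      obtain ⟨w', rfl⟩ := hy
      exact ⟨w ++ w', by simp⟩
  have hAS : Aper S := by
    rintro ⟨x, hx⟩
    obtain ⟨w, rfl⟩ := hS x hx
    obtain ⟨n, hn⟩ := hA w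
    exact ⟨n, Subtype.ext (by simpa using hn)⟩
  let g : α → S := fun a => ⟨f a, Submonoid.subset_closure ⟨a, rfl⟩⟩
  have hg : ∀ u : List α, ((u.map g).prod : M) = (u.map f).prod := by
    intro u
    rw [Submonoid.coe_list_prod, List.map_map]
    rfl
  by_cases hp : p ∈ S
  · have h := schutz hAS g ⟨p, hp⟩
    have h' : {u : List α | (u.map g).prod = ⟨p, hp⟩} = {u : List α | (u.map f).prod = p} := by
      ext w
      constructor
      · intro h
        have h2 : (w.map g).prod = ⟨p, hp⟩ := h
        change (w.map f).prod = p
        rw [← hg, h2]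
      · intro h
        have h2 : (w.map f).prod = p := h
        change (w.map g).prod = ⟨p, hp⟩
        apply Subtype.ext
        rw [hg, h2]
    rwa [h'] at h
  · have h' : {u : List α | (u.map f).prod = p} = ∅ := by
      ext w
      constructor
      · intro h
        have h2 : (w.map f).prod = p := h
        exact absurd (h2 ▸ hg w ▸ ((w.map g).prod).2) hp
      · intro hw
        exact absurd hw (Set.notMem_empty w)
    rw [h']
    exact HLe.empty

end Vale.Agent.P329
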