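import Vale.Agent.P329h2.Groups

/-!
# The full transformation monoid, and inverse images
-/

namespace Vale.Agent.P329

open Equiv

variable {α : Type}

/-- a map on `{0, ..., m}` is order preserving off `0` -/
theorem hle_one_act [Finite α] {m : ℕ} (f : α → Fin (m + 1) → Fin (m + 1)) (h : OrdOff f)
    (S : Set (Fin (m + 1) → Fin (m + 1))) : HLe 1 {w : List α | act f w ∈ S} := by
  classical
  have h1 := upper (f := f) ({0} : Finset (Fin (m + 1)))
    (by rw [Finset.coe_singleton]; exact aperOff_of_ordOff h) S
  rw [Finset.card_singleton] at h1
  exact h1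

/-- the map sending `a` to `b` and fixing all the other points -/
def clps {X : Type} [DecidableEq X] (a b : X) (x : X) : X := if x = a then b else x

/-- three letters: an `n`-cycle, an adjacent transposition, and the map sending `1` to `0` and
fixing all the other points -/
def fT (m : ℕ) : Option Bool → Fin (m + 2) → Fin (m + 2)
  | some b => fS m b
  | none => clps 1 0

theorem ordOff_fT (m : ℕ) : OrdOff (fT m) := by
  intro a i j hi hj hi' hj' hij
  cases a with
  | some b => exact ordOff_fS m b i j hi hj hi' hj' hij
  | none =>
    have h1 : ∀ k : Fin (m + 2), fT m none k ≠ 0 → fT m none k = k := by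
      intro k hk
      change clps 1 0 k = k
      unfold clps
      rw [if_neg]
      rintro rfl
      apply hk
      change clps 1 0 1 = 0
      unfold clps
      rw [if_pos rfl]
    rw [h1 i hi', h1 j hj']
    exact hij

theorem act_surj_perm (m : ℕ) (σ : Perm (Fin (m + 2))) : ∃ w, act (fT m) w = σ := by
  have h : σ ∈ Subgroup.closure (Set.range (fS m)) := by rw [closure_fS]; trivial
  have h1 : ∃ w : List Bool, (w.map (fS m)).prod = σ := by
    rw [← SetLike.mem_coe, ← Subgroup.coe_toSubmonoid, Subgroup.closure_toSubmonoid_of_finite] at h
    obtain ⟨l, hl, rfl⟩ := Submonoid.exists_list_of_mem_closure h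
    clear h
    induction l with
    | nil => exact ⟨[], rfl⟩
    | cons x l ih =>
      obtain ⟨w, hw⟩ := ih fun y hy => hl y (List.mem_cons_of_mem _ hy)
      obtain ⟨b, hb⟩ := hl x (by simp)
      exact ⟨b :: w, by rw [List.map_cons, List.prod_cons, List.prod_cons, hw, hb]⟩
  obtain ⟨w, hw⟩ := h1
  refine ⟨w.map some, ?_⟩
  rw [← hw, ← act_perm]
  clear hw h
  induction w with
  | nil => rfl
  | cons a w ih =>
    funext i
    change fT m (some a) (act (fT m) (w.map some) i) = fS m a (act (fun a => ⇑(fS m a)) w i)
    rw [ih]
    rfl

theorem act_mul {X : Type} (f : α → X → X) {g g' : X → X} (h : ∃ w, act f w = g)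
    (h' : ∃ w, act f w = g') : ∃ w, act f w = g ∘ g' := by
  obtain ⟨w, rfl⟩ := h
  obtain ⟨w', rfl⟩ := h'
  exact ⟨w ++ w', by funext i; exact act_append w w' i⟩

theorem act_surj_clps (m : ℕ) (a b : Fin (m + 2)) (hab : a ≠ b) :
    ∃ w, act (fT m) w = clps a b := by
  classical
  obtain ⟨σ, h1, h0⟩ : ∃ σ : Perm (Fin (m + 2)), σ a = 1 ∧ σ b = 0 := by
    refine ⟨swap ((swap a 1) b) 0 * swap a 1, ?_, ?_⟩
    · rw [Perm.mul_apply, swap_apply_left]
      apply swap_apply_of_ne_of_ne
      · intro h
        apply hab
        have : (swap a 1) b = (swap a 1) a := by rw [swap_apply_left]; exact h.symm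
        exact ((swap a 1).injective this).symm
      · exact one_ne_zero
    · rw [Perm.mul_apply, swap_apply_left]
  have h : clps a b = (⇑σ⁻¹) ∘ ((clps 1 0) ∘ ⇑σ) := by
    funext x
    simp only [Function.comp_apply, clps]
    by_cases hx : x = a
    · rw [if_pos hx, hx, h1, if_pos rfl, ← h0]
      exact (σ.symm_apply_apply b).symm
    · rw [if_neg hx, if_neg]
      · exact (σ.symm_apply_apply x).symm
      · intro h2
        exact hx (σ.injective (h2.trans h1.symm))
  rw [h]
  apply act_mul
  · exact act_surj_perm m σ⁻¹
  · apply act_mul
    · exact ⟨[none], rfl⟩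
    · exact act_surj_perm m σ

theorem act_surj_aux (m : ℕ) (n : ℕ) : ∀ g : Fin (m + 2) → Fin (m + 2),
    (m + 2) - (Finset.univ.image g).card ≤ n → ∃ w, act (fT m) w = g := by
  classical
  induction n with
  | zero =>
    intro g hg
    have h1 : (Finset.univ.image g).card = (Finset.univ : Finset (Fin (m + 2))).card := by
      have : (Finset.univ.image g).card ≤ (Finset.univ : Finset (Fin (m + 2))).card :=
        Finset.card_image_le
      rw [Finset.card_univ, Fintype.card_fin] at this ⊢
      omega
    have hinj : Function.Injective g := by
      rw [← Set.injOn_univ, ← Finset.coe_univ]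
      exact Finset.card_image_iff.1 h1
    have hbij : Function.Bijective g := Finite.injective_iff_bijective.1 hinj
    exact act_surj_perm m (Equiv.ofBijective g hbij)
  | succ n ih =>
    intro g hg
    by_cases hbij : Function.Injective g
    · exact act_surj_perm m (Equiv.ofBijective g (Finite.injective_iff_bijective.1 hbij))
    · have hsurj : ¬ Function.Surjective g := fun h =>
        hbij (Finite.injective_iff_surjective.2 h)
      unfold Function.Surjective at hsurj
      push Not at hsurj
      obtain ⟨d, hd⟩ := hsurj
      unfold Function.Injective at hbij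
      push Not at hbij
      obtain ⟨a, b, hab, hne⟩ := hbij
      have h1 : clps d (g a) ∘ Function.update g a d = g := by
        funext x
        simp only [Function.comp_apply, clps]
        by_cases hx : x = a
        · subst hx
          rw [Function.update_self, if_pos rfl]
        · rw [Function.update_of_ne hx, if_neg (hd x)]
      have h2 : Finset.univ.image (Function.update g a d) = insert d (Finset.univ.image g) := by
        ext y
        simp only [Finset.mem_image, Finset.mem_univ, true_and, Finset.mem_insert]
        constructor
        · rintro ⟨x, rfl⟩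
          by_cases hx : x = a
          · subst hx
            left
            rw [Function.update_self]
          · right
            exact ⟨x, (Function.update_of_ne hx _ _).symm⟩
        · rintro (rfl | ⟨x, rfl⟩)
          · exact ⟨a, Function.update_self _ _ _⟩
          · by_cases hx : x = a
            · subst hx
              exact ⟨b, by rw [Function.update_of_ne (Ne.symm hne)]; exact hab.symm⟩
            · exact ⟨x, Function.update_of_ne hx _ _⟩
      have h3 : d ∉ Finset.univ.image g := by
        intro h
        rw [Finset.mem_image] at h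
        obtain ⟨x, _, hx⟩ := h
        exact hd x hx
      have h4 := ih (Function.update g a d) (by
        rw [h2, Finset.card_insert_of_notMem h3]
        omega)
      rw [← h1]
      exact act_mul _ (act_surj_clps m d (g a) fun h => hd a h.symm) h4

theorem act_surj (m : ℕ) (g : Fin (m + 2) → Fin (m + 2)) : ∃ w, act (fT m) w = g :=
  act_surj_aux m (m + 2) g (Nat.sub_le _ _)

/-- every regular language is an inverse image of a language of generalized star height at most
one over a three letter alphabet -/
theorem inverse_image {M : Type} [Monoid M] [Finite M] (φ : α → M) (P : Set M) :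
    ∃ (h : α → List (Option Bool)) (K : Set (List (Option Bool))), HLe 1 K ∧
      ∀ w : List α, (w.map φ).prod ∈ P ↔ (w.map h).flatten ∈ K := by
  classical
  obtain ⟨m, ⟨e⟩⟩ : ∃ m : ℕ, Nonempty (M ↪ Fin (m + 2)) := by
    refine ⟨Nat.card M, ⟨?_⟩⟩
    have e1 : M ≃ Fin (Nat.card M) := Finite.equivFin M
    exact e1.toEmbedding.trans (Fin.castLEEmb (Nat.le_add_right _ _))
  let T : M → Fin (m + 2) → Fin (m + 2) := fun x y =>
    if h : ∃ z, e z = y then e (x * h.choose) else y
  have hT : ∀ x z, T x (e z) = e (x * z) := by
    intro x z
    have h : ∃ z', e z' = e z := ⟨z, rfl⟩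
    change (if h : ∃ z', e z' = e z then e (x * h.choose) else e z) = e (x * z)
    rw [dif_pos h]
    congr 2
    exact e.injective h.choose_spec
  choose h hh using fun x => act_surj m (T x)
  refine ⟨fun a => h (φ a), {w | act (fT m) w ∈ {g | g (e 1) ∈ e '' P}},
    hle_one_act _ (ordOff_fT m) _, fun w => ?_⟩
  have key : act (fT m) (w.map fun a => h (φ a)).flatten (e 1) = e (w.map φ).prod := by
    induction w with
    | nil => rfl
    | cons a w ih =>
      rw [List.map_cons, List.flatten_cons, act_append, ih, hh, hT, List.map_cons, List.prod_cons]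
  change _ ↔ act (fT m) (w.map fun a => h (φ a)).flatten (e 1) ∈ e '' P
  rw [key]
  constructor
  · intro hw
    exact ⟨_, hw, rfl⟩
  · rintro ⟨x, hx, hx'⟩
    rw [← e.injective hx']
    exact hx

end Vale.Agent.P329
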