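import Vale.Agent.P329h2.Schutz

/-!
# Automata that become counter-free after deleting finitely many states
-/

namespace Vale.Agent.P329

variable {α X : Type}

section Basic

variable {f : α → X → X} {D : Set X}

theorem act_append (u v : List α) (i : X) : act f (u ++ v) i = act f u (act f v i) := by
  induction u with
  | nil => rfl
  | cons a u ih =>
    change f a (act f (u ++ v) i) = f a (act f u (act f v i))
    rw [ih]

theorem Avoid.act_eq {w : List α} {i j : X} (h : Avoid f D w i j) : act f w i = j := by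
  induction w generalizing j with
  | nil => exact h.1
  | cons a w ih =>
    obtain ⟨k, hk, hj, _⟩ := h
    change f a (act f w i) = j
    rw [ih hk, hj]

theorem Avoid.unique {w : List α} {i j j' : X} (h : Avoid f D w i j) (h' : Avoid f D w i j') :
    j = j' := by
  rw [← h.act_eq, ← h'.act_eq]

theorem avoid_empty {w : List α} {i j : X} : Avoid f ∅ w i j ↔ act f w i = j := by
  constructor
  · exact Avoid.act_eq
  · intro h
    induction w generalizing j with
    | nil => exact ⟨h, Set.notMem_empty _⟩
    | cons a w ih => exact ⟨act f w i, ih rfl, h, Set.notMem_empty _⟩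

theorem Avoid.ne_right {w : List α} {i j : X} (h : Avoid f D w i j) : j ∉ D := by
  cases w with
  | nil => exact h.2
  | cons a w =>
    obtain ⟨k, _, _, hj⟩ := h
    exact hj

theorem Avoid.ne_left {w : List α} {i j : X} (h : Avoid f D w i j) : i ∉ D := by
  induction w generalizing j with
  | nil => exact h.1 ▸ h.2
  | cons a w ih =>
    obtain ⟨k, hk, _, _⟩ := h
    exact ih hk

theorem Avoid.mono {E : Set X} (hDE : D ⊆ E) {w : List α} {i j : X} (h : Avoid f E w i j) :
    Avoid f D w i j := by
  induction w generalizing j with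
  | nil => exact ⟨h.1, fun hj => h.2 (hDE hj)⟩
  | cons a w ih =>
    obtain ⟨k, hk, h1, h2⟩ := h
    exact ⟨k, ih hk, h1, fun hj => h2 (hDE hj)⟩

theorem avoid_append {u v : List α} {i j : X} :
    Avoid f D (u ++ v) i j ↔ ∃ k, Avoid f D v i k ∧ Avoid f D u k j := by
  induction u generalizing j with
  | nil =>
    constructor
    · intro h
      exact ⟨j, h, rfl, h.ne_right⟩
    · rintro ⟨k, h, h', _⟩
      exact h' ▸ h
  | cons a u ih =>
    constructor
    · rintro ⟨k, hk, hj⟩
      obtain ⟨l, hl, hl'⟩ := ih.1 hk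
      exact ⟨l, hl, k, hl', hj⟩
    · rintro ⟨l, hl, k, hl', hj⟩
      exact ⟨k, ih.2 ⟨l, hl, hl'⟩, hj⟩

theorem avoid_single {b : α} {i j : X} : Avoid f D [b] i j ↔ i ∉ D ∧ f b i = j ∧ j ∉ D := by
  constructor
  · rintro ⟨k, ⟨rfl, h1⟩, h2, h3⟩
    exact ⟨h1, h2, h3⟩
  · rintro ⟨h1, h2, h3⟩
    exact ⟨i, ⟨rfl, h1⟩, h2, h3⟩

end Basic

section Lang

variable (f : α → X → X) (D : Set X) (x0 : X)

/-- words leading from `i` to the first visit to `x0`, inside the complement of `D` -/
def EE (i : X) : Set (List α) :=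
  {w | ∃ a v z, w = a :: v ∧ Avoid f (insert x0 D) v i z ∧ f a z = x0}

/-- words leading from `x0` to `j` without return -/
def DD (j : X) : Set (List α) :=
  {w | ∃ v b, w = v ++ [b] ∧ Avoid f (insert x0 D) v (f b x0) j}

/-- first return words -/
def KK : Set (List α) := {w | ∃ b, w = [b] ∧ f b x0 = x0} ∪
  {w | ∃ v b, w = v ++ [b] ∧ v ∈ EE f D x0 (f b x0)}

variable {f D x0}

theorem EE_av (h0 : x0 ∉ D) {i : X} {w : List α} (h : w ∈ EE f D x0 i) : Avoid f D w i x0 := by
  obtain ⟨a, v, z, rfl, h, hz⟩ := h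
  exact ⟨z, h.mono (Set.subset_insert _ _), hz, h0⟩

theorem DD_av (h0 : x0 ∉ D) {j : X} {w : List α} (h : w ∈ DD f D x0 j) : Avoid f D w x0 j := by
  obtain ⟨v, b, rfl, h⟩ := h
  have h' := h.mono (Set.subset_insert x0 D)
  exact avoid_append.2 ⟨f b x0, avoid_single.2 ⟨h0, rfl, h'.ne_left⟩, h'⟩

theorem KK_av (h0 : x0 ∉ D) {w : List α} (h : w ∈ KK f D x0) : Avoid f D w x0 x0 := by
  rcases h with ⟨b, rfl, h⟩ | ⟨v, b, rfl, h⟩
  · exact avoid_single.2 ⟨h0, h, h0⟩
  · have h' := EE_av h0 h
    exact avoid_append.2 ⟨f b x0, avoid_single.2 ⟨h0, rfl, h'.ne_left⟩, h'⟩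

theorem lemB (w : List α) {i j : X} (hi : i ≠ x0) (h : Avoid f D w i j) :
    Avoid f (insert x0 D) w i j ∨
      ∃ u e, w = u ++ e ∧ e ∈ EE f D x0 i ∧ Avoid f D u x0 j := by
  induction w generalizing j with
  | nil =>
    left
    refine ⟨h.1, ?_⟩
    rintro (h' | h')
    · exact hi (h.1.trans h')
    · exact h.2 h'
  | cons a w ih =>
    obtain ⟨k, hk, hj, hjD⟩ := h
    rcases ih hk with h1 | ⟨u, e, rfl, he, hu⟩
    · by_cases h2 : j = x0
      · subst h2
        exact Or.inr ⟨[], a :: w, rfl, ⟨a, w, k, rfl, h1, hj⟩, rfl, hjD⟩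
      · refine Or.inl ⟨k, h1, hj, ?_⟩
        rintro (h' | h')
        · exact h2 h'
        · exact hjD h'
    · exact Or.inr ⟨a :: u, e, rfl, he, k, hu, hj, hjD⟩

theorem lemC (w : List α) {j : X} (h : Avoid f D w x0 j) :
    ∃ v u, w = v ++ u ∧ Avoid f D u x0 x0 ∧ ((v = [] ∧ j = x0) ∨ v ∈ DD f D x0 j) := by
  induction w generalizing j with
  | nil =>
    have h1 : x0 = j := h.1
    subst h1
    exact ⟨[], [], rfl, h, Or.inl ⟨rfl, rfl⟩⟩
  | cons a w ih =>
    by_cases h2 : j = x0
    · subst h2
      exact ⟨[], a :: w, rfl, h, Or.inl ⟨rfl, rfl⟩⟩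
    · obtain ⟨k, hk, hj, hjD⟩ := h
      have hjD' : j ∉ insert x0 D := by
        rintro (h' | h')
        · exact h2 h'
        · exact hjD h'
      obtain ⟨v, u, rfl, hu, ⟨rfl, rfl⟩ | hv⟩ := ih hk
      · refine ⟨[a], u, rfl, hu, Or.inr ⟨[], a, rfl, ?_⟩⟩
        exact ⟨hj, hjD'⟩
      · refine ⟨a :: v, u, rfl, hu, Or.inr ?_⟩
        obtain ⟨v', b, rfl, hb⟩ := hv
        exact ⟨a :: v', b, rfl, k, hb, hj, hjD'⟩

theorem kst_append {L : Set (List α)} {u v : List α} (hu : u ∈ kst L) (hv : v ∈ L) :
    u ++ v ∈ kst L := by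
  obtain ⟨l, hl, rfl⟩ := hu
  refine ⟨l ++ [v], ?_, by simp⟩
  intro x hx
  rcases List.mem_append.1 hx with hx | hx
  · exact hl x hx
  · rw [List.mem_singleton] at hx
    rw [hx]
    exact hv

theorem kst_KK_aux (n : ℕ) : ∀ w : List α, w.length ≤ n → Avoid f D w x0 x0 →
    w ∈ kst (KK f D x0) := by
  induction n with
  | zero =>
    intro w hw _
    have : w = [] := List.length_eq_zero_iff.1 (by omega)
    subst this
    exact ⟨[], by simp, rfl⟩
  | succ n ih =>
    intro w hw h
    rcases List.eq_nil_or_concat w with rfl | ⟨w', b, rfl⟩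
    · exact ⟨[], by simp, rfl⟩
    · rw [List.concat_eq_append] at hw h ⊢
      rw [List.length_append, List.length_singleton] at hw
      obtain ⟨k, hk, h1⟩ := avoid_append.1 h
      obtain ⟨_, rfl, hkD⟩ := avoid_single.1 hk
      by_cases hb : f b x0 = x0
      · rw [hb] at h1
        exact kst_append (ih w' (by omega) h1) (Or.inl ⟨b, rfl, hb⟩)
      · rcases lemB w' hb h1 with h2 | ⟨u, e, rfl, he, hu⟩
        · exact absurd (Set.mem_insert _ _) h2.ne_right
        · rw [List.length_append] at hw
          rw [List.append_assoc]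
          exact kst_append (ih u (by omega) hu) (Or.inr ⟨e, b, rfl, he⟩)

theorem kst_KK (h0 : x0 ∉ D) : kst (KK f D x0) = {w | Avoid f D w x0 x0} := by
  ext w
  constructor
  · rintro ⟨l, hl, rfl⟩
    change Avoid f D l.flatten x0 x0
    induction l with
    | nil => exact ⟨rfl, h0⟩
    | cons u l ih =>
      rw [List.flatten_cons, avoid_append]
      exact ⟨x0, ih (fun v hv => hl v (List.mem_cons_of_mem _ hv)), KK_av h0 (hl u (by simp))⟩
  · exact fun h => kst_KK_aux w.length w le_rfl h

theorem lang_ix (h0 : x0 ∉ D) {i : X} (hi : i ≠ x0) :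
    {w | Avoid f D w i x0} = cat (kst (KK f D x0)) (EE f D x0 i) := by
  ext w
  constructor
  · intro h
    rcases lemB w hi h with h1 | ⟨u, e, rfl, he, hu⟩
    · exact absurd (Set.mem_insert _ _) h1.ne_right
    · exact ⟨u, by rw [kst_KK h0]; exact hu, e, he, rfl⟩
  · rintro ⟨u, hu, e, he, rfl⟩
    rw [kst_KK h0] at hu
    exact avoid_append.2 ⟨x0, EE_av h0 he, hu⟩

theorem lang_xj (h0 : x0 ∉ D) {j : X} (hj : j ≠ x0) :
    {w | Avoid f D w x0 j} = cat (DD f D x0 j) (kst (KK f D x0)) := by
  ext w
  constructor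
  · intro h
    obtain ⟨v, u, rfl, hu, ⟨_, h1⟩ | hv⟩ := lemC w h
    · exact absurd h1 hj
    · exact ⟨v, hv, u, by rw [kst_KK h0]; exact hu, rfl⟩
  · rintro ⟨u, hu, e, he, rfl⟩
    rw [kst_KK h0] at he
    exact avoid_append.2 ⟨x0, he, DD_av h0 hu⟩

theorem lang_ij (h0 : x0 ∉ D) {i j : X} (hi : i ≠ x0) (hj : j ≠ x0) :
    {w | Avoid f D w i j} = {w | Avoid f (insert x0 D) w i j} ∪
      cat (cat (DD f D x0 j) (kst (KK f D x0))) (EE f D x0 i) := by
  ext w
  constructor
  · intro h
    rcases lemB w hi h with h1 | ⟨u, e, rfl, he, hu⟩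
    · exact Or.inl h1
    · right
      rw [← lang_xj h0 hj]
      exact ⟨u, hu, e, he, rfl⟩
  · rintro (h | h)
    · exact Avoid.mono (Set.subset_insert _ _) h
    · rw [← lang_xj h0 hj] at h
      obtain ⟨u, hu, e, he, rfl⟩ := h
      exact avoid_append.2 ⟨x0, EE_av h0 he, hu⟩

end Lang

section Height

variable [Finite α] [Finite X] {f : α → X → X} {D : Set X} {x0 : X} {k : ℕ}

theorem HLe.EE (h : ∀ i j, HLe k {w : List α | Avoid f (insert x0 D) w i j}) (i : X) :
    HLe k (EE f D x0 i) := by
  classical
  have : Vale.Agent.P329.EE f D x0 i = ⋃ p : {p : α × X // f p.1 p.2 = x0},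
      Vale.Agent.P329.cat {[p.1.1]} {w | Avoid f (insert x0 D) w i p.1.2} := by
    ext w
    constructor
    · rintro ⟨a, v, z, rfl, h1, h2⟩
      exact Set.mem_iUnion.2 ⟨⟨(a, z), h2⟩, [a], rfl, v, h1, rfl⟩
    · intro h
      obtain ⟨⟨⟨a, z⟩, h2⟩, u, hu, v, hv, rfl⟩ := Set.mem_iUnion.1 h
      obtain rfl : u = [a] := hu
      exact ⟨a, v, z, rfl, hv, h2⟩
  rw [this]
  apply HLe.iUnion
  intro p
  exact (HLe.char _).cat (h _ _)

theorem HLe.DD (h : ∀ i j, HLe k {w : List α | Avoid f (insert x0 D) w i j}) (j : X) :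
    HLe k (DD f D x0 j) := by
  classical
  have : Vale.Agent.P329.DD f D x0 j = ⋃ b : α,
      Vale.Agent.P329.cat {w | Avoid f (insert x0 D) w (f b x0) j} {[b]} := by
    ext w
    constructor
    · rintro ⟨v, b, rfl, h1⟩
      exact Set.mem_iUnion.2 ⟨b, v, h1, [b], rfl, rfl⟩
    · intro h
      obtain ⟨b, v, hv, u, hu, rfl⟩ := Set.mem_iUnion.1 h
      obtain rfl : u = [b] := hu
      exact ⟨v, b, rfl, hv⟩
  rw [this]
  apply HLe.iUnion
  intro p
  exact (h _ _).cat (HLe.char _)

theorem HLe.KK (h : ∀ i j, HLe k {w : List α | Avoid f (insert x0 D) w i j}) :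
    HLe k (KK f D x0) := by
  classical
  apply HLe.union
  · have : {w : List α | ∃ b, w = [b] ∧ f b x0 = x0} = ⋃ b : {b : α // f b x0 = x0}, {[b.1]} := by
      ext w
      constructor
      · rintro ⟨b, rfl, hb⟩
        exact Set.mem_iUnion.2 ⟨⟨b, hb⟩, rfl⟩
      · intro h
        obtain ⟨⟨b, hb⟩, hw⟩ := Set.mem_iUnion.1 h
        exact ⟨b, hw, hb⟩
    rw [this]
    apply HLe.iUnion
    intro b
    exact HLe.char _
  · have : {w : List α | ∃ v b, w = v ++ [b] ∧ v ∈ Vale.Agent.P329.EE f D x0 (f b x0)} =
        ⋃ b : α, Vale.Agent.P329.cat (Vale.Agent.P329.EE f D x0 (f b x0)) {[b]} := by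
      ext w
      constructor
      · rintro ⟨v, b, rfl, h1⟩
        exact Set.mem_iUnion.2 ⟨b, v, h1, [b], rfl, rfl⟩
      · intro h
        obtain ⟨b, v, hv, u, hu, rfl⟩ := Set.mem_iUnion.1 h
        obtain rfl : u = [b] := hu
        exact ⟨v, b, rfl, hv⟩
    rw [this]
    apply HLe.iUnion
    intro p
    exact (HLe.EE h _).cat (HLe.char _)

theorem HLe.step (h : ∀ i j, HLe k {w : List α | Avoid f (insert x0 D) w i j}) (i j : X) :
    HLe (k + 1) {w : List α | Avoid f D w i j} := by
  have hk : k ≤ k + 1 := Nat.le_succ k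
  have hK : HLe (k + 1) (Vale.Agent.P329.kst (Vale.Agent.P329.KK f D x0)) := (HLe.KK h).kst
  by_cases h0 : x0 ∈ D
  · have e : insert x0 D = D := Set.insert_eq_of_mem h0
    rw [e] at h
    exact (h i j).mono hk
  by_cases hi : i = x0
  · subst hi
    by_cases hj : j = i
    · subst hj
      rw [← kst_KK h0]
      exact hK
    · rw [lang_xj h0 hj]
      exact ((HLe.DD h j).mono hk).cat hK
  · by_cases hj : j = x0
    · subst hj
      rw [lang_ix h0 hi]
      exact hK.cat ((HLe.EE h i).mono hk)
    · rw [lang_ij h0 hi hj]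
      exact ((h i j).mono hk).union
        ((((HLe.DD h j).mono hk).cat hK).cat ((HLe.EE h i).mono hk))

theorem HLe.steps (E : Finset X) : ∀ D : Set X,
    (∀ i j, HLe k {w : List α | Avoid f (D ∪ (E : Set X)) w i j}) →
    ∀ i j, HLe (k + E.card) {w : List α | Avoid f D w i j} := by
  classical
  induction E using Finset.induction_on with
  | empty =>
    intro D h
    simpa using h
  | insert x E hx ih =>
    intro D h
    rw [Finset.card_insert_of_notMem hx, ← add_assoc]
    apply HLe.step (x0 := x)
    apply ih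
    have : insert x D ∪ (E : Set X) = D ∪ ((insert x E : Finset X) : Set X) := by
      rw [Finset.coe_insert, Set.union_insert, Set.insert_union]
    rw [this]
    exact h

open Classical in
/-- the partial action as a function -/
noncomputable def pf (f : α → X → X) (D : Set X) (a : α) : Function.End (Option X) := fun o =>
  match o with
  | none => none
  | some k => if k ∉ D ∧ f a k ∉ D then some (f a k) else none

omit [Finite α] [Finite X] in
theorem pf_iff {i : X} (hi : i ∉ D) (w : List α) (j : X) :
    Avoid f D w i j ↔ (w.map (pf f D)).prod (some i) = some j := by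
  classical
  induction w generalizing j with
  | nil =>
    constructor
    · intro h
      obtain ⟨h, _⟩ := h
      subst h
      rfl
    · intro h
      have h' : some i = some j := h
      obtain rfl : i = j := Option.some.inj h'
      exact ⟨rfl, hi⟩
  | cons a w ih =>
    rw [List.map_cons, List.prod_cons]
    change _ ↔ pf f D a ((w.map (pf f D)).prod (some i)) = some j
    constructor
    · rintro ⟨k, hk, hj, hj0⟩
      rw [(ih k).1 hk]
      have hk0 := hk.ne_right
      simp only [pf]
      rw [if_pos ⟨hk0, by rw [hj]; exact hj0⟩, hj]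
    · intro h
      cases hk : (w.map (pf f D)).prod (some i) with
      | none => rw [hk] at h; simp [pf] at h
      | some k =>
        rw [hk] at h
        simp only [pf] at h
        split_ifs at h with h1
        have h2 : f a k = j := Option.some.inj h
        exact ⟨k, (ih k).2 hk, h2, h2 ▸ h1.2⟩

omit [Finite α] [Finite X] in
theorem pf_none (w : List α) : (w.map (pf f D)).prod none = none := by
  induction w with
  | nil => rfl
  | cons a w ih =>
    rw [List.map_cons, List.prod_cons]
    change pf f D a ((w.map (pf f D)).prod none) = none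
    rw [ih]
    rfl

omit [Finite α] [Finite X] in
theorem pf_D {i : X} (hi : i ∈ D) (w : List α) (hw : w ≠ []) :
    (w.map (pf f D)).prod (some i) = none := by
  classical
  rcases List.eq_nil_or_concat w with rfl | ⟨w', b, rfl⟩
  · exact absurd rfl hw
  · rw [List.concat_eq_append, List.map_append, List.prod_append]
    change (w'.map (pf f D)).prod ((([b] : List α).map (pf f D)).prod (some i)) = none
    have : (([b] : List α).map (pf f D)).prod (some i) = none := by
      rw [List.map_singleton, List.prod_singleton]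
      simp [pf, hi]
    rw [this, pf_none]

omit [Finite α] [Finite X] in
theorem pf_aper (h : AperOff f D) (w : List α) :
    ∃ n : ℕ, (w.map (pf f D)).prod ^ n = (w.map (pf f D)).prod ^ (n + 1) := by
  by_cases hw : w = []
  · exact ⟨0, by simp [hw]⟩
  obtain ⟨n, hn⟩ := h w
  have hpow : ∀ k : ℕ, (w.map (pf f D)).prod ^ k =
      (((List.replicate k w).flatten).map (pf f D)).prod := by
    intro k
    induction k with
    | zero => simp
    | succ k ih => rw [pow_succ', ih, List.replicate_succ, List.flatten_cons, List.map_append,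
        List.prod_append]
  refine ⟨n + 1, ?_⟩
  have hflat : ∀ k : ℕ, (List.replicate (k + 1) w).flatten ≠ [] := by
    intro k
    rw [List.replicate_succ, List.flatten_cons]
    simp [hw]
  funext o
  cases o with
  | none => rw [hpow, hpow, pf_none, pf_none]
  | some i =>
    by_cases hi : i ∈ D
    · rw [hpow, hpow, pf_D hi _ (hflat n), pf_D hi _ (hflat (n + 1))]
    · have h1 : ((w.map (pf f D)).prod ^ n) (some i) =
          ((w.map (pf f D)).prod ^ (n + 1)) (some i) := by
        rw [hpow, hpow]
        apply Option.ext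
        intro j
        have := hn i j
        rw [pf_iff hi, pf_iff hi] at this
        exact this
      have e1 : ((w.map (pf f D)).prod ^ (n + 1)) (some i) =
          (w.map (pf f D)).prod (((w.map (pf f D)).prod ^ n) (some i)) := by
        rw [pow_succ']
        rfl
      have e2 : ((w.map (pf f D)).prod ^ (n + 1 + 1)) (some i) =
          (w.map (pf f D)).prod (((w.map (pf f D)).prod ^ (n + 1)) (some i)) := by
        rw [pow_succ' _ (n + 1)]
        rfl
      rw [e2, ← h1]
      exact h1.trans e1

theorem HLe.avoid (h : AperOff f D) (i j : X) : HLe 0 {w : List α | Avoid f D w i j} := by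
  classical
  by_cases hi : i ∈ D
  · have : {w : List α | Avoid f D w i j} = ∅ := by
      ext w
      constructor
      · intro h
        exact absurd hi (Avoid.ne_left h)
      · intro hw
        exact absurd hw (Set.notMem_empty w)
    rw [this]
    exact HLe.empty
  · have hfin : Finite (Function.End (Option X)) := inferInstanceAs (Finite (Option X → Option X))
    have : {w : List α | Avoid f D w i j} =
        ⋃ m : {m : Function.End (Option X) // m (some i) = some j},
          {w | (w.map (pf f D)).prod = m.1} := by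
      ext w
      constructor
      · intro h
        exact Set.mem_iUnion.2 ⟨⟨(w.map (pf f D)).prod, (pf_iff hi w j).1 h⟩, rfl⟩
      · intro h
        obtain ⟨⟨m, hm⟩, h⟩ := Set.mem_iUnion.1 h
        have h' : (w.map (pf f D)).prod = m := h
        exact (pf_iff hi w j).2 (by rw [h']; exact hm)
    rw [this]
    apply HLe.iUnion
    intro m
    exact schutz' (pf f D) (pf_aper h) m.1

/-- If an automaton becomes counter-free after deleting `n` states, all the languages recognized by
its transition monoid have generalized star height at most `n`. -/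
theorem upper (E : Finset X) (h : AperOff f (E : Set X)) (S : Set (X → X)) :
    HLe E.card {w : List α | act f w ∈ S} := by
  classical
  have hij : ∀ i j, HLe E.card {w : List α | act f w i = j} := by
    intro i j
    have h1 := HLe.steps (f := f) (k := 0) E ∅ (by rw [Set.empty_union]; exact HLe.avoid h) i j
    rw [Nat.zero_add] at h1
    simpa only [avoid_empty] using h1
  have : {w : List α | act f w ∈ S} = ⋃ σ : S, ⋂ i : X, {w | act f w i = σ.1 i} := by
    ext w
    constructor
    · intro h
      exact Set.mem_iUnion.2 ⟨⟨act f w, h⟩, Set.mem_iInter.2 fun i => rfl⟩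
    · intro h
      obtain ⟨⟨σ, hσ⟩, h⟩ := Set.mem_iUnion.1 h
      have h' : act f w = σ := by
        funext i
        exact Set.mem_iInter.1 h i
      change act f w ∈ S
      rw [h']
      exact hσ
  rw [this]
  apply HLe.iUnion
  intro σ
  apply HLe.iInter
  intro i
  exact hij _ _

end Height

end Vale.Agent.P329
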